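import Vale.Agent.P235.H150.Window

set_option linter.all false

/-! The energy inequality for one monotone cut. -/

namespace Vale.Agent.P235.TL

open Set

theorem pair_ind {m nc : ℕ} {A : Type} {P Q : ℕ → A} {F : A → Bool} {p q : ℤ}
    (hP : ∀ h : ℕ, 4 * m ≤ h → h ≤ 4 * m + 2 * nc → (F (P h) = true ↔ p ≤ h))
    (hQ : ∀ h : ℕ, 3 * m ≤ h → h ≤ 5 * m + 2 * nc → (F (Q h) = true ↔ q ≤ h))
    (h1 : q ≤ p + m) (h2 : p ≤ q + m) :
    En m nc (fun i => P (i + 2 * m)) (fun i => Q (i + 2 * m)) (ind F) +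
      En m nc (fun i => P (i + (nc + 2 * m))) (fun i => Q (i + (nc + 2 * m))) (ind F) =
      if (4 * m : ℤ) < p ∧ p ≤ 4 * m + 2 * nc then ((q : ℝ) - p) ^ 2 else 0 := by
  rw [En_ind (τ₀ := p - 2 * m) (τ₁ := q - 2 * m) (fun h a b => by
      rw [hP _ (by omega) (by omega)]; push_cast; omega) (fun h a b => by
      rw [hQ _ (by omega) (by omega)]; push_cast; omega) (by omega) (by omega),
    En_ind (τ₀ := p - (nc + 2 * m)) (τ₁ := q - (nc + 2 * m)) (fun h a b => by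
      rw [hP _ (by omega) (by omega)]; push_cast; omega) (fun h a b => by
      rw [hQ _ (by omega) (by omega)]; push_cast; omega) (by omega) (by omega)]
  push_cast
  by_cases ha : (4 * m : ℤ) < p ∧ p ≤ 4 * m + 2 * nc
  · rw [if_pos ha]
    by_cases hb : p ≤ 4 * m + nc
    · rw [if_pos (by omega), if_neg (by omega)]; ring
    · rw [if_neg (by omega), if_pos (by omega)]; ring
  · rw [if_neg ha, if_neg (by omega), if_neg (by omega)]; ring

theorem cut_ineq {m nc : ℕ} (hnc : m ≤ nc) {A : Type} {X Y Z₁ Z₂ : ℕ → A}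
    {F : A → Bool} {x y z₁ z₂ : ℤ}
    (hX : ∀ h : ℕ, h ≤ 2 * nc + 8 * m → (F (X h) = true ↔ x ≤ h))
    (hZ₁ : ∀ h : ℕ, m ≤ h → h ≤ 2 * nc + 7 * m → (F (Z₁ h) = true ↔ z₁ ≤ h))
    (hZ₂ : ∀ h : ℕ, m ≤ h → h ≤ 2 * nc + 7 * m → (F (Z₂ h) = true ↔ z₂ ≤ h))
    (hY : ∀ h : ℕ, 2 * m ≤ h → h ≤ 2 * nc + 6 * m → (F (Y h) = true ↔ y ≤ h))
    (r1 : x ≤ z₁ + m) (r2 : z₁ ≤ x + m) (r3 : x ≤ z₂ + m) (r4 : z₂ ≤ x + m)
    (r5 : y ≤ z₁ + m) (r6 : z₁ ≤ y + m) (r7 : y ≤ z₂ + m) (r8 : z₂ ≤ y + m)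
    {t : ℝ} (ht : 0 ≤ t) :
    4 * En m nc (fun i => X (2 * i)) (fun i => Y (2 * i)) (ind F) +
      2 * t * Zf (5 * m) (2 * nc - 2 * m) Z₁ Z₂ (ind F) ≤
    (En m nc (fun i => X (i + 2 * m)) (fun i => Z₁ (i + 2 * m)) (ind F) +
      En m nc (fun i => X (i + (nc + 2 * m))) (fun i => Z₁ (i + (nc + 2 * m))) (ind F)) +
    (En m nc (fun i => X (i + 2 * m)) (fun i => Z₂ (i + 2 * m)) (ind F) +
      En m nc (fun i => X (i + (nc + 2 * m))) (fun i => Z₂ (i + (nc + 2 * m))) (ind F)) +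
    (En m nc (fun i => Z₁ (i + 2 * m)) (fun i => Y (i + 2 * m)) (ind F) +
      En m nc (fun i => Z₁ (i + (nc + 2 * m))) (fun i => Y (i + (nc + 2 * m))) (ind F)) +
    (En m nc (fun i => Z₂ (i + 2 * m)) (fun i => Y (i + 2 * m)) (ind F) +
      En m nc (fun i => Z₂ (i + (nc + 2 * m))) (fun i => Y (i + (nc + 2 * m))) (ind F)) +
    (4 * m + 1 + t ^ 2) * Xf (4 * m) (2 * nc) X (ind F) +
    2 * (m : ℝ) ^ 2 * (Xf (4 * m) m X (ind F) + Xf (2 * nc + 3 * m) m X (ind F)) := by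
  rw [pair_ind (p := x) (q := z₁) (fun h a b => hX h (by omega)) (fun h a b => hZ₁ h (by omega)
      (by omega)) (by omega) (by omega),
    pair_ind (p := x) (q := z₂) (fun h a b => hX h (by omega)) (fun h a b => hZ₂ h (by omega)
      (by omega)) (by omega) (by omega),
    pair_ind (p := z₁) (q := y) (fun h a b => hZ₁ h (by omega) (by omega))
      (fun h a b => hY h (by omega) (by omega)) (by omega) (by omega),
    pair_ind (p := z₂) (q := y) (fun h a b => hZ₂ h (by omega) (by omega))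
      (fun h a b => hY h (by omega) (by omega)) (by omega) (by omega),
    En_ind (τ₀ := (x + 1) / 2) (τ₁ := (y + 1) / 2) (fun h a b => by
      rw [hX _ (by omega)]; push_cast; omega) (fun h a b => by
      rw [hY _ (by omega) (by omega)]; push_cast; omega) (by omega) (by omega),
    Xf_ind (τ := x) (fun h a b => hX h (by omega)),
    Xf_ind (τ := x) (fun h a b => hX h (by omega)),
    Xf_ind (τ := x) (fun h a b => hX h (by omega))]
  push_cast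
  have hm0 : (0 : ℝ) ≤ m := Nat.cast_nonneg m
  by_cases hx : (4 * m : ℤ) < x ∧ x ≤ 4 * m + 2 * nc
  · have hZ := Zf_ind (h₀ := 5 * m) (n := 2 * nc - 2 * m) (P := Z₁) (Q := Z₂) (F := F)
      (τ₁ := z₁) (τ₂ := z₂) (fun h a b => hZ₁ h (by omega) (by omega))
      (fun h a b => hZ₂ h (by omega) (by omega))
    rw [if_pos hx, if_pos hx, if_pos hx, if_pos (show (2 * m : ℤ) < (x + 1) / 2 ∧
      (x + 1) / 2 ≤ 2 * m + nc by omega)]
    have hpar : 4 * ((((y + 1) / 2 : ℤ) : ℝ) - (((x + 1) / 2 : ℤ) : ℝ)) ^ 2 ≤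
        ((y : ℝ) - x) ^ 2 + 4 * m + 1 := by
      have h1 : |2 * ((y + 1) / 2) - 2 * ((x + 1) / 2)| ≤ |y - x| + 1 := by
        rcases abs_cases (2 * ((y + 1) / 2) - 2 * ((x + 1) / 2)) with ⟨e, _⟩ | ⟨e, _⟩ <;>
        rcases abs_cases (y - x) with ⟨e', _⟩ | ⟨e', _⟩ <;> omega
      have h2 : |y - x| ≤ 2 * m := by
        rw [abs_le]; omega
      have h3 : (2 * ((y + 1) / 2) - 2 * ((x + 1) / 2)) ^ 2 ≤ (y - x) ^ 2 + 4 * m + 1 := by
        have h4 := pow_le_pow_left₀ (abs_nonneg _) h1 2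
        rw [sq_abs, add_sq, sq_abs] at h4
        linarith
      have h5 : ((2 * ((y + 1) / 2 : ℤ) - 2 * ((x + 1) / 2 : ℤ) : ℤ) : ℝ) ^ 2 ≤
          ((y : ℝ) - x) ^ 2 + 4 * m + 1 := by
        exact_mod_cast h3
      push_cast at h5
      have : 4 * ((((y + 1) / 2 : ℤ) : ℝ) - (((x + 1) / 2 : ℤ) : ℝ)) ^ 2 =
          (2 * (((y + 1) / 2 : ℤ) : ℝ) - 2 * (((x + 1) / 2 : ℤ) : ℝ)) ^ 2 := by ring
      rw [this]
      exact h5
    have hgain : 2 * t * |(z₁ : ℝ) - z₂| ≤ ((z₁ : ℝ) - z₂) ^ 2 + t ^ 2 := by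
      have := sq_nonneg (|(z₁ : ℝ) - z₂| - t)
      rw [sub_sq, sq_abs] at this
      linarith
    have hZ' : 2 * t * Zf (5 * m) (2 * nc - 2 * m) Z₁ Z₂ (ind F) ≤ 2 * t * |(z₁ : ℝ) - z₂| :=
      mul_le_mul_of_nonneg_left hZ (by positivity)
    have hdia : ((y : ℝ) - x) ^ 2 + ((z₁ : ℝ) - z₂) ^ 2 ≤ ((z₁ : ℝ) - x) ^ 2 +
        ((z₂ : ℝ) - x) ^ 2 + ((y : ℝ) - z₁) ^ 2 + ((y : ℝ) - z₂) ^ 2 := by
      nlinarith [sq_nonneg ((x : ℝ) + y - z₁ - z₂)]
    have hs : ∀ z : ℤ, x ≤ z + m → z ≤ x + m → y ≤ z + m → z ≤ y + m →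
        ((y : ℝ) - z) ^ 2 ≤ (if (4 * m : ℤ) < z ∧ z ≤ 4 * m + 2 * nc then ((y : ℝ) - z) ^ 2 else 0)
          + (m : ℝ) ^ 2 * ((if (4 * m : ℤ) < x ∧ x ≤ 4 * m + m then 1 else 0) +
            (if (2 * nc + 3 * m : ℤ) < x ∧ x ≤ 2 * nc + 3 * m + m then 1 else 0)) := by
      intro z a b c d
      by_cases hz : (4 * m : ℤ) < z ∧ z ≤ 4 * m + 2 * nc
      · rw [if_pos hz]
        have : (0 : ℝ) ≤ (m : ℝ) ^ 2 *
            ((if (4 * m : ℤ) < x ∧ x ≤ 4 * m + m then 1 else 0) +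
            (if (2 * nc + 3 * m : ℤ) < x ∧ x ≤ 2 * nc + 3 * m + m then 1 else 0)) := by
          refine mul_nonneg (sq_nonneg _) (add_nonneg ?_ ?_) <;> split_ifs <;> norm_num
        linarith
      · rw [if_neg hz]
        have h6 : ((y : ℝ) - z) ^ 2 ≤ (m : ℝ) ^ 2 := by
          rw [sq_le_sq, abs_of_nonneg hm0, abs_le]
          have c' : (y : ℝ) ≤ z + m := by exact_mod_cast c
          have d' : (z : ℝ) ≤ y + m := by exact_mod_cast d
          constructor <;> linarith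
        have h7 : (1 : ℝ) ≤ ((if (4 * m : ℤ) < x ∧ x ≤ 4 * m + m then 1 else 0) +
            (if (2 * nc + 3 * m : ℤ) < x ∧ x ≤ 2 * nc + 3 * m + m then 1 else 0)) := by
          by_cases h8 : (4 * m : ℤ) < x ∧ x ≤ 4 * m + m
          · rw [if_pos h8]
            have : (0 : ℝ) ≤
              (if (2 * nc + 3 * m : ℤ) < x ∧ x ≤ 2 * nc + 3 * m + m then 1 else 0) := by
              split_ifs <;> norm_num
            linarith
          · rw [if_neg h8, if_pos (by omega)]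
            norm_num
        nlinarith [sq_nonneg (m : ℝ)]
    have hs1 := hs z₁ r1 r2 r5 r6
    have hs2 := hs z₂ r3 r4 r7 r8
    nlinarith [hs1, hs2, hpar, hgain, hZ', hdia]
  · have hZ : Zf (5 * m) (2 * nc - 2 * m) Z₁ Z₂ (ind F) = 0 := by
      rw [Zf_apply]
      refine Finset.sum_eq_zero fun b hb => ?_
      rw [Finset.mem_range] at hb
      have f0 := hZ₁ (5 * m + b) (by omega) (by omega)
      have f1 := hZ₂ (5 * m + b) (by omega) (by omega)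
      push_cast at f0 f1
      unfold ind
      rw [if_pos]
      rw [Bool.eq_iff_iff, f0, f1]
      omega
    rw [hZ, if_neg hx, if_neg hx, if_neg hx, if_neg (show ¬ ((2 * m : ℤ) < (x + 1) / 2 ∧
      (x + 1) / 2 ≤ 2 * m + nc) by omega)]
    have n1 : (0 : ℝ) ≤ (if (4 * m : ℤ) < z₁ ∧ z₁ ≤ 4 * m + 2 * nc then ((y : ℝ) - z₁) ^ 2 else 0) := by
      split_ifs <;> positivity
    have n2 : (0 : ℝ) ≤ (if (4 * m : ℤ) < z₂ ∧ z₂ ≤ 4 * m + 2 * nc then ((y : ℝ) - z₂) ^ 2 else 0) := by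
      split_ifs <;> positivity
    have n3 : (0 : ℝ) ≤ (m : ℝ) ^ 2 *
            ((if (4 * m : ℤ) < x ∧ x ≤ 4 * m + m then 1 else 0) +
            (if (2 * nc + 3 * m : ℤ) < x ∧ x ≤ 2 * nc + 3 * m + m then 1 else 0)) := by
      refine mul_nonneg (sq_nonneg _) (add_nonneg ?_ ?_) <;> split_ifs <;> norm_num
    nlinarith [n1, n2, n3]

end Vale.Agent.P235.TL
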