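import Vale.Agent.P235.Comp.Defs

set_option linter.all false

/-! Spaces built from a base space by adding points to cliques of at most `k` points. -/

namespace Vale.Agent.P235.TL

open Set

/-- Metric (finite valued, with positive distances between distinct points). -/
structure Met {V : Type} (d : V → V → ℝ) : Prop where
  self : ∀ x, d x x = 0
  pos : ∀ x y, x ≠ y → 0 < d x y
  symm : ∀ x y, d x y = d y x
  tri : ∀ x y z, d x z ≤ d x y + d y z

theorem Met.nonneg {V : Type} {d : V → V → ℝ} (h : Met d) (x y : V) : 0 ≤ d x y := by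
  by_cases e : x = y
  · subst e; rw [h.self]
  · exact (h.pos x y e).le

theorem Met.inj {V W : Type} {d : V → V → ℝ} {e : W → W → ℝ} (h : Met d) (he : Met e)
    {f : V → W} (hf : ∀ x y, e (f x) (f y) = d x y) : Function.Injective f := by
  intro x y hxy
  by_contra hne
  have h1 := h.pos x y hne
  rw [← hf, hxy, he.self] at h1
  exact lt_irrefl _ h1

theorem Met.comap {V W : Type} {d : V → V → ℝ} (h : Met d) {f : W → V}
    (hf : Function.Injective f) : Met (fun x y => d (f x) (f y)) :=
  ⟨fun x => h.self _, fun x y hxy => h.pos _ _ fun e => hxy (hf e), fun x y => h.symm _ _,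
    fun x y z => h.tri _ _ _⟩

/-- distance from the new point -/
noncomputable def toNew {V : Type} (d : V → V → ℝ) {n : ℕ} (s : Fin n → V) (δ : Fin n → ℝ)
    (v : V) : ℝ := ⨅ j, (δ j + d (s j) v)

/-- add one point -/
noncomputable def addPt {V : Type} (d : V → V → ℝ) {n : ℕ} (s : Fin n → V) (δ : Fin n → ℝ) :
    Option V → Option V → ℝ
  | none, none => 0
  | none, some v => toNew d s δ v
  | some v, none => toNew d s δ v
  | some u, some v => d u v

/-- valid attachment data -/
structure Att {V : Type} (d : V → V → ℝ) {n : ℕ} (s : Fin n → V) (δ : Fin n → ℝ) : Prop where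
  npos : 0 < n
  pos : ∀ i, 0 < δ i
  lip : ∀ i j, δ i ≤ δ j + d (s j) (s i)
  tri : ∀ i j, d (s i) (s j) ≤ δ i + δ j

/-- cliques after adding a point -/
def addCl {V : Type} (C : Set V → Prop) {n : ℕ} (s : Fin n → V) : Set (Option V) → Prop :=
  fun T => (∃ T₀, C T₀ ∧ T ⊆ some '' T₀) ∨ T ⊆ insert none (some '' Set.range s)

/-- Spaces built over `(A, dA)`: type, inclusion of the base, distance, cliques. -/
inductive Ext (k : ℕ) {A : Type} (dA : A → A → ℝ) :
    (V : Type) → (A → V) → (V → V → ℝ) → (Set V → Prop) → Prop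
  | base : Ext k dA A id dA (fun _ => True)
  | step {V : Type} {i : A → V} {d : V → V → ℝ} {C : Set V → Prop} {n : ℕ} (s : Fin n → V)
      (δ : Fin n → ℝ) : Ext k dA V i d C → n ≤ k → C (Set.range s) → Att d s δ →
      Ext k dA (Option V) (fun a => some (i a)) (addPt d s δ) (addCl C s)

theorem toNew_le {V : Type} {d : V → V → ℝ} {n : ℕ} {s : Fin n → V} {δ : Fin n → ℝ} (j : Fin n)
    (v : V) : toNew d s δ v ≤ δ j + d (s j) v :=
  ciInf_le (Set.finite_range _).bddBelow j

theorem le_toNew {V : Type} {d : V → V → ℝ} {n : ℕ} {s : Fin n → V} {δ : Fin n → ℝ}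
    (hn : 0 < n) {v : V} {r : ℝ} (h : ∀ j, r ≤ δ j + d (s j) v) : r ≤ toNew d s δ v := by
  have : Nonempty (Fin n) := ⟨⟨0, hn⟩⟩
  exact le_ciInf h

theorem exists_toNew {V : Type} {d : V → V → ℝ} {n : ℕ} {s : Fin n → V} {δ : Fin n → ℝ}
    (hn : 0 < n) (v : V) : ∃ j, toNew d s δ v = δ j + d (s j) v := by
  have : Nonempty (Fin n) := ⟨⟨0, hn⟩⟩
  obtain ⟨j, hj⟩ := exists_eq_ciInf_of_finite (f := fun j => δ j + d (s j) v)
  exact ⟨j, hj.symm⟩

theorem Met.addPt {V : Type} {d : V → V → ℝ} (h : Met d) {n : ℕ} {s : Fin n → V}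
    {δ : Fin n → ℝ} (ha : Att d s δ) : Met (addPt d s δ) := by
  have hpos : ∀ v, 0 < toNew d s δ v := by
    intro v
    obtain ⟨j, hj⟩ := exists_toNew (d := d) (s := s) (δ := δ) ha.npos v
    rw [hj]
    have := h.nonneg (s j) v
    have := ha.pos j
    linarith
  have hlip : ∀ u v, toNew d s δ v ≤ toNew d s δ u + d u v := by
    intro u v
    obtain ⟨j, hj⟩ := exists_toNew (d := d) (s := s) (δ := δ) ha.npos u
    rw [hj]
    have h1 := toNew_le (d := d) (s := s) (δ := δ) j v
    have h2 := h.tri (s j) u v
    linarith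
  have htri : ∀ u v, d u v ≤ toNew d s δ u + toNew d s δ v := by
    intro u v
    obtain ⟨j, hj⟩ := exists_toNew (d := d) (s := s) (δ := δ) ha.npos u
    obtain ⟨i, hi⟩ := exists_toNew (d := d) (s := s) (δ := δ) ha.npos v
    rw [hj, hi]
    have h1 := h.tri u (s j) v
    have h2 := h.tri (s j) (s i) v
    have h3 := ha.tri j i
    rw [h.symm u (s j)] at h1
    linarith
  refine ⟨?_, ?_, ?_, ?_⟩
  · rintro (_ | x)
    · rfl
    · exact h.self x
  · rintro (_ | x) (_ | y) hxy
    · exact absurd rfl hxy
    · exact hpos y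
    · exact hpos x
    · exact h.pos x y fun e => hxy (congrArg some e)
  · rintro (_ | x) (_ | y)
    · rfl
    · rfl
    · rfl
    · exact h.symm x y
  · rintro (_ | x) (_ | y) (_ | z)
    · show (0 : ℝ) ≤ 0 + 0
      norm_num
    · show toNew d s δ z ≤ 0 + toNew d s δ z
      linarith
    · show (0 : ℝ) ≤ toNew d s δ y + toNew d s δ y
      have := hpos y; linarith
    · exact hlip y z
    · show toNew d s δ x ≤ toNew d s δ x + 0
      linarith
    · show d x z ≤ toNew d s δ x + toNew d s δ z
      exact htri x z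
    · show toNew d s δ x ≤ d x y + toNew d s δ y
      have := hlip y x
      rw [h.symm y x] at this
      linarith
    · exact h.tri x y z

namespace Ext

variable {k : ℕ} {A : Type} {dA : A → A → ℝ} {V : Type} {i : A → V} {d : V → V → ℝ}
  {C : Set V → Prop}

theorem met (h : Ext k dA V i d C) (hA : Met dA) : Met d := by
  induction h with
  | base => exact hA
  | step s δ h hn hC ha ih => exact ih.addPt ha

theorem down (h : Ext k dA V i d C) : ∀ {T T' : Set V}, C T → T' ⊆ T → C T' := by
  induction h with
  | base => intro T T' _ _; trivial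
  | step s δ h hn hC ha ih =>
    intro T T' hT hsub
    rcases hT with ⟨T₀, hT₀, hT⟩ | hT
    · exact Or.inl ⟨T₀, hT₀, hsub.trans hT⟩
    · exact Or.inr (hsub.trans hT)

theorem iso (h : Ext k dA V i d C) : ∀ a b, d (i a) (i b) = dA a b := by
  induction h with
  | base => intro a b; rfl
  | step s δ h hn hC ha ih => intro a b; exact ih a b

theorem rangeC (h : Ext k dA V i d C) : C (Set.range i) := by
  induction h with
  | base => trivial
  | step s δ h hn hC ha ih =>
    refine Or.inl ⟨_, ih, ?_⟩
    rintro _ ⟨a, rfl⟩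
    exact ⟨_, ⟨a, rfl⟩, rfl⟩

theorem finite (h : Ext k dA V i d C) [Finite A] : Finite V := by
  induction h with
  | base => infer_instance
  | step s δ h hn hC ha ih => have := ih; infer_instance

theorem nonempty (h : Ext k dA V i d C) [Nonempty A] : Nonempty V := by
  obtain ⟨a⟩ := ‹Nonempty A›
  exact ⟨i a⟩

/-- scaling -/
theorem scale (h : Ext k dA V i d C) {c : ℝ} (hc : 0 < c) :
    Ext k (fun a b => c * dA a b) V i (fun x y => c * d x y) C := by
  induction h with
  | base => exact Ext.base
  | @step V i d C n s δ h hn hC ha ih =>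
    have e : (fun x y => c * addPt d s δ x y) =
        addPt (fun x y => c * d x y) s (fun j => c * δ j) := by
      have key : ∀ v, c * toNew d s δ v = toNew (fun x y => c * d x y) s (fun j => c * δ j) v := by
        intro v
        unfold toNew
        rw [Real.mul_iInf_of_nonneg hc.le]
        refine iInf_congr fun j => ?_
        ring
      funext x y
      rcases x with _ | x <;> rcases y with _ | y
      · exact mul_zero c
      · exact key y
      · exact key x
      · rfl
    rw [e]
    refine Ext.step s (fun j => c * δ j) ih hn hC ⟨ha.npos, fun i => mul_pos hc (ha.pos i), ?_, ?_⟩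
    · intro i j
      have := mul_le_mul_of_nonneg_left (ha.lip i j) hc.le
      rw [mul_add] at this
      exact this
    · intro i j
      have := mul_le_mul_of_nonneg_left (ha.tri i j) hc.le
      rw [mul_add] at this
      exact this

/-- amalgamation -/
theorem amalgam {W : Type} {iW : A → W} {dW : W → W → ℝ} {CW : Set W → Prop}
    (hW : Ext k dA W iW dW CW) {B : Type} {dB : B → B → ℝ} {φ : B → W}
    (hφ : ∀ x y, dW (φ x) (φ y) = dB x y) (hC : CW (Set.range φ))
    {V : Type} {iV : B → V} {dV : V → V → ℝ} {CV : Set V → Prop} (hV : Ext k dB V iV dV CV) :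
    ∃ (W' : Type) (iW' : A → W') (dW' : W' → W' → ℝ) (CW' : Set W' → Prop),
      Ext k dA W' iW' dW' CW' ∧ ∃ (j : W → W') (ψ : V → W'), (∀ a, j (iW a) = iW' a) ∧
        (∀ x y, dW' (j x) (j y) = dW x y) ∧ (∀ x y, dW' (ψ x) (ψ y) = dV x y) ∧
        (∀ b, ψ (iV b) = j (φ b)) ∧ (∀ T, CV T → CW' (ψ '' T)) := by
  induction hV with
  | base =>
    refine ⟨W, iW, dW, CW, hW, id, φ, fun _ => rfl, fun _ _ => rfl, hφ, fun _ => rfl, ?_⟩
    intro T _
    exact hW.down hC (Set.image_subset_range _ _)
  | @step V iV dV CV n s δ h hn hCs ha ih =>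
    obtain ⟨W', iW', dW', CW', hW', j, ψ, h1, h2, h3, h4, h5⟩ := ih
    have hr : Set.range (ψ ∘ s) = ψ '' Set.range s := Set.range_comp _ _
    have ha' : Att dW' (ψ ∘ s) δ := ⟨ha.npos, ha.pos, fun i j => by
      show δ i ≤ δ j + dW' (ψ (s j)) (ψ (s i))
      rw [h3]; exact ha.lip i j, fun i j => by
      show dW' (ψ (s i)) (ψ (s j)) ≤ _
      rw [h3]; exact ha.tri i j⟩
    refine ⟨_, _, _, _, Ext.step (ψ ∘ s) δ hW' hn (by rw [hr]; exact h5 _ hCs) ha',
      fun w => some (j w), Option.map ψ, ?_, ?_, ?_, ?_, ?_⟩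
    · intro a
      show some (j (iW a)) = _
      rw [h1]
    · intro x y; exact h2 x y
    · have key : ∀ v, toNew dW' (ψ ∘ s) δ (ψ v) = toNew dV s δ v := by
        intro v
        unfold toNew
        refine iInf_congr fun j => ?_
        show δ j + dW' (ψ (s j)) (ψ v) = _
        rw [h3]
      rintro (_ | x) (_ | y)
      · rfl
      · exact key y
      · exact key x
      · exact h3 x y
    · intro b
      show some (ψ (iV b)) = _
      rw [h4]
    · rintro T (⟨T₀, hT₀, hT⟩ | hT)
      · refine Or.inl ⟨ψ '' T₀, h5 _ hT₀, ?_⟩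
        rintro _ ⟨x, hx, rfl⟩
        obtain ⟨y, hy, rfl⟩ := hT hx
        exact ⟨ψ y, ⟨y, hy, rfl⟩, rfl⟩
      · refine Or.inr ?_
        rintro _ ⟨x, hx, rfl⟩
        rcases hT hx with rfl | ⟨y, ⟨j, rfl⟩, rfl⟩
        · exact Or.inl rfl
        · exact Or.inr ⟨ψ (s j), ⟨j, rfl⟩, rfl⟩

end Ext

/-- a superset of the base with at most `k + 1` points is built over the base -/
theorem grow {k : ℕ} {A B : Type} [Finite B] [Nonempty A] {dB : B → B → ℝ} (hB : Met dB)
    {ι : A → B} (hι : Function.Injective ι) (hcard : Nat.card B ≤ k + 1) :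
    ∃ (W : Type) (iW : A → W) (dW : W → W → ℝ) (CW : Set W → Prop),
      Ext k (fun a b => dB (ι a) (ι b)) W iW dW CW ∧ ∃ φ : B → W,
        (∀ x y, dW (φ x) (φ y) = dB x y) ∧ CW (Set.range φ) ∧ ∀ a, φ (ι a) = iW a := by
  classical
  have := Fintype.ofFinite B
  suffices H : ∀ U : Finset B, ∃ (W : Type) (iW : A → W) (dW : W → W → ℝ) (CW : Set W → Prop),
      Ext k (fun a b => dB (ι a) (ι b)) W iW dW CW ∧ ∃ φ : B → W,
        (∀ x ∈ Set.range ι ∪ ↑U, ∀ y ∈ Set.range ι ∪ ↑U, dW (φ x) (φ y) = dB x y) ∧
        CW (φ '' (Set.range ι ∪ ↑U)) ∧ ∀ a, φ (ι a) = iW a by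
    obtain ⟨W, iW, dW, CW, h, φ, h1, h2, h3⟩ := H Finset.univ
    refine ⟨W, iW, dW, CW, h, φ, fun x y => h1 x (by simp) y (by simp), ?_, h3⟩
    rw [← Set.image_univ]
    refine h.down h2 (Set.image_mono ?_)
    intro x _
    simp
  intro U
  induction U using Finset.induction_on with
  | empty =>
    refine ⟨A, id, _, _, Ext.base, Function.invFun ι, ?_, trivial, ?_⟩
    · intro x hx y hy
      simp only [Finset.coe_empty, Set.union_empty] at hx hy
      obtain ⟨a, rfl⟩ := hx
      obtain ⟨b, rfl⟩ := hy
      rw [Function.leftInverse_invFun hι, Function.leftInverse_invFun hι]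
    · intro a
      exact Function.leftInverse_invFun hι a
  | insert b U hb ih =>
    obtain ⟨W, iW, dW, CW, h, φ, h1, h2, h3⟩ := ih
    by_cases hbr : b ∈ Set.range ι ∪ ↑U
    · have e : Set.range ι ∪ ↑(insert b U) = Set.range ι ∪ ↑U := by
        ext x
        simp only [Finset.coe_insert, Set.mem_union, Set.mem_insert_iff]
        constructor
        · rintro (h | rfl | h)
          · exact Or.inl h
          · exact hbr
          · exact Or.inr h
        · rintro (h | h)
          · exact Or.inl h
          · exact Or.inr (Or.inr h)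
      rw [e]
      exact ⟨W, iW, dW, CW, h, φ, h1, h2, h3⟩
    · set R : Set B := Set.range ι ∪ ↑U with hR
      have hRf : R.Finite := Set.toFinite _
      have hRn : R.Nonempty := by
        obtain ⟨a⟩ := ‹Nonempty A›
        exact ⟨ι a, Or.inl ⟨a, rfl⟩⟩
      set n : ℕ := Nat.card R with hn
      have hnpos : 0 < n := by
        have : Nonempty R := hRn.to_subtype
        exact Nat.card_pos
      have hnk : n ≤ k := by
        have h4 : (insert b R).ncard = R.ncard + 1 := Set.ncard_insert_of_notMem hbr hRf
        have h5 : (insert b R).ncard ≤ Nat.card B := by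
          rw [← Set.ncard_univ]
          exact Set.ncard_le_ncard (Set.subset_univ _) (Set.toFinite _)
        have h6 : R.ncard = n := rfl
        omega
      have e : Fin n ≃ R := (Finite.equivFin R).symm
      have hRe : ∀ j, (e j : B) ∈ R := fun j => (e j).2
      have hne : ∀ j, b ≠ (e j : B) := fun j h => hbr (h ▸ hRe j)
      have hrange : Set.range (fun j => φ (e j)) = φ '' R := by
        ext w
        constructor
        · rintro ⟨j, rfl⟩; exact ⟨_, hRe j, rfl⟩
        · rintro ⟨x, hx, rfl⟩
          exact ⟨e.symm ⟨x, hx⟩, by simp⟩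
      have ha : Att dW (fun j => φ (e j)) (fun j => dB b (e j)) := by
        refine ⟨hnpos, fun j => hB.pos _ _ (hne j), fun i j => ?_, fun i j => ?_⟩
        · rw [h1 _ (hRe j) _ (hRe i)]
          exact hB.tri _ _ _
        · rw [h1 _ (hRe i) _ (hRe j), hB.symm b (e i)]
          exact hB.tri _ _ _
      refine ⟨_, _, _, _, Ext.step _ _ h hnk (by rw [hrange]; exact h2) ha,
        fun x => if x = b then none else some (φ x), ?_, ?_, ?_⟩
      · have key : ∀ x ∈ R, toNew dW (fun j => φ (e j)) (fun j => dB b (e j)) (φ x) = dB b x := by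
          intro x hx
          apply le_antisymm
          · refine (toNew_le (e.symm ⟨x, hx⟩) _).trans ?_
            have := h1 x hx x hx
            rw [hB.self] at this
            simp [this]
          · refine le_toNew hnpos fun j => ?_
            rw [h1 _ (hRe j) _ hx]
            exact hB.tri _ _ _
        have hmem : ∀ x ∈ Set.range ι ∪ ↑(insert b U), x ≠ b → x ∈ R := by
          intro x hx hxb
          simp only [Finset.coe_insert, Set.mem_union, Set.mem_insert_iff] at hx
          rcases hx with h | h | h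
          · exact Or.inl h
          · exact absurd h hxb
          · exact Or.inr h
        intro x hx y hy
        show addPt dW (fun j => φ (e j)) (fun j => dB b (e j)) (if x = b then none else some (φ x))
          (if y = b then none else some (φ y)) = dB x y
        by_cases hxb : x = b <;> by_cases hyb : y = b
        · subst hxb; subst hyb
          simp only [if_true]
          exact (hB.self _).symm
        · subst hxb
          rw [if_pos rfl, if_neg hyb]
          exact key y (hmem y hy hyb)
        · subst hyb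
          rw [if_pos rfl, if_neg hxb, hB.symm x y]
          exact key x (hmem x hx hxb)
        · rw [if_neg hxb, if_neg hyb]
          exact h1 x (hmem x hx hxb) y (hmem y hy hyb)
      · refine Or.inr ?_
        rintro _ ⟨x, hx, rfl⟩
        by_cases hxb : x = b
        · simp only [hxb, if_true]; exact Or.inl rfl
        · simp only [hxb, if_false]
          refine Or.inr ⟨φ x, ?_, rfl⟩
          rw [hrange]
          refine ⟨x, ?_, rfl⟩
          simp only [Finset.coe_insert, Set.mem_union, Set.mem_insert_iff] at hx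
          rcases hx with h | h | h
          · exact Or.inl h
          · exact absurd h hxb
          · exact Or.inr h
      · intro a
        have : ι a ≠ b := fun h => hbr (h ▸ Or.inl ⟨a, rfl⟩)
        show (if ι a = b then none else some (φ (ι a))) = some (iW a)
        rw [if_neg this, h3]

end Vale.Agent.P235.TL
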