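import Vale.Agent.P235.H150.Main

set_option linter.all false

/-! The lower bound. -/

namespace Vale.Agent.P235.TL

open Set

theorem lower {D : ℝ} (hD : 1 ≤ D) {k : ℕ} (hk : 267 * D ^ 4 ≤ k) : ¬ Hyp k D := by
  intro H
  have hD0 : 0 < D := by linarith
  have hDD : 1 ≤ D ^ 2 := one_le_pow₀ hD
  set m : ℕ := ⌈2 * D ^ 2⌉₊ with hm
  set b : ℕ := ⌈6 * D ^ 2⌉₊ with hb
  have m1 : 2 * D ^ 2 ≤ m := Nat.le_ceil _
  have m2 : (m : ℝ) < 2 * D ^ 2 + 1 := Nat.ceil_lt_add_one (by positivity)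
  have b1 : 6 * D ^ 2 ≤ b := Nat.le_ceil _
  have b2 : (b : ℝ) < 6 * D ^ 2 + 1 := Nat.ceil_lt_add_one (by positivity)
  have hm2 : (2 : ℝ) ≤ m := by linarith
  have hmN : 1 ≤ m := by
    have : (1 : ℝ) ≤ m := by linarith
    exact_mod_cast this
  have hb6 : (6 : ℝ) ≤ b := by linarith
  have hbN : 1 ≤ b := by
    have : (1 : ℝ) ≤ b := by linarith
    exact_mod_cast this
  have hcard : 4 * (2 * (m * b + 4 * m) + 1) ≤ k + 1 := by
    have h1 : (m : ℝ) ≤ 3 * D ^ 2 := by linarith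
    have h2 : (b : ℝ) + 4 ≤ 11 * D ^ 2 := by linarith
    have h3 : (m : ℝ) * (b + 4) ≤ (3 * D ^ 2) * (11 * D ^ 2) :=
      mul_le_mul h1 h2 (by positivity) (by positivity)
    have h4 : (1 : ℝ) ≤ D ^ 4 := one_le_pow₀ hD
    have h5 : (4 * (2 * (m * b + 4 * m) + 1) : ℝ) ≤ k + 1 := by nlinarith
    exact_mod_cast h5
  have key := energy H hD hmN (nc := m * b) (Nat.le_mul_of_pos_right m hbN) hcard
    (t := 2 * m / D) (by positivity)
  push_cast at key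
  set M : ℝ := (m : ℝ) with hM
  set B : ℝ := (b : ℝ) with hB
  have hMp : 0 < M := by linarith
  have hBp : 0 < B := by linarith
  have k1 : 2 * (2 * M / D) * ((2 * (M * B) - 2 * M) * (2 * M / D)) =
      16 * M ^ 3 * (B - 1) / D ^ 2 := by
    field_simp; ring
  have k2 : (4 * M + 1 + (2 * M / D) ^ 2) * (2 * (M * B)) + 2 * M ^ 2 * (M + M) =
      ((8 * M + 2) * M * B * D ^ 2 + 8 * M ^ 3 * B + 4 * M ^ 3 * D ^ 2) / D ^ 2 := by
    field_simp; ring
  rw [k1, k2, div_le_div_iff_of_pos_right (by positivity)] at key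
  -- divide by `M`
  have k3 : 16 * M ^ 2 * (B - 1) ≤ (8 * M + 2) * B * D ^ 2 + 8 * M ^ 2 * B + 4 * M ^ 2 * D ^ 2 := by
    have : M * (16 * M ^ 2 * (B - 1)) ≤
        M * ((8 * M + 2) * B * D ^ 2 + 8 * M ^ 2 * B + 4 * M ^ 2 * D ^ 2) := by nlinarith
    exact le_of_mul_le_mul_left this hMp
  have k4 : (8 * M + 2) * B * D ^ 2 ≤ (8 * M + 2) * B * (M / 2) :=
    mul_le_mul_of_nonneg_left (by linarith) (by positivity)
  have k5 : (4 * M - 1) * B ≤ 16 * M + 4 * M * D ^ 2 := by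
    have : M * ((4 * M - 1) * B) ≤ M * (16 * M + 4 * M * D ^ 2) := by nlinarith
    exact le_of_mul_le_mul_left this hMp
  have k6 : (7 / 2 * M) * B ≤ (4 * M - 1) * B :=
    mul_le_mul_of_nonneg_right (by linarith) hBp.le
  have k7 : (7 / 2) * B ≤ 16 + 4 * D ^ 2 := by
    have : M * ((7 / 2) * B) ≤ M * (16 + 4 * D ^ 2) := by nlinarith
    exact le_of_mul_le_mul_left this hMp
  linarith

end Vale.Agent.P235.TL
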