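import Vale.Agent.P235.Comp.Core
import Vale.Agent.P235.H150.Ext

set_option linter.all false

/-! The spaces of `Ext k` are path metrics of connected graphs of treewidth at most `k`. -/

namespace Vale.Agent.P235.TL

open Set

/-- symmetrised edge length -/
noncomputable def len {V : Type} (d : V → V → ℝ) : Sym2 V → ℝ :=
  Sym2.lift ⟨fun x y => (d x y + d y x) / 2, fun x y => by ring⟩

theorem len_mk {V : Type} {d : V → V → ℝ} (hs : ∀ x y, d x y = d y x) (x y : V) :
    len d s(x, y) = d x y := by
  show (d x y + d y x) / 2 = d x y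
  rw [hs y x]; ring

/-- two points are adjacent if they form a clique -/
def clG {V : Type} (C : Set V → Prop) : SimpleGraph V where
  Adj u v := u ≠ v ∧ C {u, v}
  symm := ⟨fun u v h => ⟨h.1.symm, by rw [Set.pair_comm]; exact h.2⟩⟩
  loopless := ⟨fun _ h => h.1 rfl⟩

/-- attach a leaf -/
def leaf {ι : Type} (T : SimpleGraph ι) (t₀ : ι) : SimpleGraph (Option ι) where
  Adj a b := match a, b with
    | none, none => False
    | none, some b => b = t₀
    | some a, none => a = t₀
    | some a, some b => T.Adj a b
  symm := ⟨by
    rintro (_ | a) (_ | b) h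
    · exact h
    · exact h
    · exact h
    · exact SimpleGraph.Adj.symm (G := T) h⟩
  loopless := ⟨by
    rintro (_ | a) h
    · exact h
    · exact SimpleGraph.irrefl T h⟩

theorem leaf_isTree {ι : Type} [Finite ι] {T : SimpleGraph ι} (hT : T.IsTree) (t₀ : ι) :
    (leaf T t₀).IsTree := by
  rw [SimpleGraph.isTree_iff_connected_and_card] at hT ⊢
  obtain ⟨hc, hcard⟩ := hT
  have f : T →g leaf T t₀ := ⟨some, fun {a b} h => h⟩
  have hf : ∀ a b : ι, (leaf T t₀).Reachable (some a) (some b) := by
    intro a b
    exact (hc a b).map (⟨some, fun {a b} h => h⟩ : T →g leaf T t₀)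
  have h0 : (leaf T t₀).Reachable none (some t₀) := by
    refine SimpleGraph.Adj.reachable ?_
    show t₀ = t₀
    rfl
  refine ⟨?_, ?_⟩
  · rw [SimpleGraph.connected_iff]
    refine ⟨?_, ⟨none⟩⟩
    rintro (_ | a) (_ | b)
    · exact SimpleGraph.Reachable.refl _
    · exact h0.trans (hf _ _)
    · exact (hf _ _).trans h0.symm
    · exact hf _ _
  · have e : (leaf T t₀).edgeSet = insert s(none, some t₀) (Sym2.map some '' T.edgeSet) := by
      ext e
      induction e using Sym2.inductionOn with
      | hf a b =>
        rw [SimpleGraph.mem_edgeSet]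
        rcases a with _ | a <;> rcases b with _ | b
        · constructor
          · intro h; exact h.elim
          · rintro (h | ⟨e, he, h⟩)
            · rw [Sym2.eq_iff] at h
              rcases h with ⟨_, h⟩ | ⟨h, _⟩ <;> exact (Option.some_ne_none _ h.symm).elim
            · exfalso
              induction e using Sym2.inductionOn with
              | hf x y =>
                rw [Sym2.map_mk, Sym2.eq_iff] at h
                rcases h with ⟨h, _⟩ | ⟨h, _⟩ <;> exact Option.some_ne_none _ h
        · constructor
          · intro h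
            have h' : b = t₀ := h
            rw [h']; exact Or.inl rfl
          · rintro (h | ⟨e, he, h⟩)
            · rw [Sym2.eq_iff] at h
              rcases h with ⟨_, h⟩ | ⟨h, _⟩
              · exact Option.some.inj h
              · exact (Option.some_ne_none _ h.symm).elim
            · exfalso
              induction e using Sym2.inductionOn with
              | hf x y =>
                rw [Sym2.map_mk, Sym2.eq_iff] at h
                rcases h with ⟨h, _⟩ | ⟨_, h⟩ <;> exact Option.some_ne_none _ h
        · constructor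
          · intro h
            have h' : a = t₀ := h
            rw [h']; exact Or.inl Sym2.eq_swap
          · rintro (h | ⟨e, he, h⟩)
            · rw [Sym2.eq_iff] at h
              rcases h with ⟨h, _⟩ | ⟨h, _⟩
              · exact (Option.some_ne_none _ h).elim
              · exact Option.some.inj h
            · exfalso
              induction e using Sym2.inductionOn with
              | hf x y =>
                rw [Sym2.map_mk, Sym2.eq_iff] at h
                rcases h with ⟨_, h⟩ | ⟨h, _⟩ <;> exact Option.some_ne_none _ h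
        · constructor
          · intro h
            exact Or.inr ⟨s(a, b), h, rfl⟩
          · rintro (h | ⟨e, he, h⟩)
            · rw [Sym2.eq_iff] at h
              rcases h with ⟨h, _⟩ | ⟨_, h⟩ <;> exact (Option.some_ne_none _ h).elim
            · have h' : Sym2.map some e = Sym2.map some s(a, b) := h
              have := Sym2.map.injective (Option.some_injective ι) h'
              subst this
              exact he
    have hn : s(none, some t₀) ∉ Sym2.map some '' T.edgeSet := by
      rintro ⟨e, he, h⟩
      induction e using Sym2.inductionOn with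
      | hf x y =>
        rw [Sym2.map_mk, Sym2.eq_iff] at h
        rcases h with ⟨h, _⟩ | ⟨_, h⟩ <;> exact Option.some_ne_none _ h
    rw [e, Nat.card_coe_set_eq, Set.ncard_insert_of_notMem hn (Set.toFinite _),
      Set.ncard_image_of_injective _ (Sym2.map.injective (Option.some_injective ι)),
      Finite.card_option]
    rw [Nat.card_coe_set_eq] at hcard
    omega

namespace Ext

variable {k : ℕ} {A : Type} {dA : A → A → ℝ} {V : Type} {i : A → V} {d : V → V → ℝ}
  {C : Set V → Prop}

theorem rel (h : Ext k dA V i d C) : ∀ {R : V → V → Prop}, (∀ x, R x x) →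
    (∀ x y, R x y → R y x) → (∀ x y z, R x y → R y z → R x z) →
    (∀ u v, C {u, v} → R u v) → ∀ u v, R u v := by
  induction h with
  | base => intro R _ _ _ h u v; exact h u v trivial
  | @step V i d C n s δ h hn hC ha ih =>
    intro R h1 h2 h3 h4
    have hs : ∀ u v, R (some u) (some v) := by
      refine ih (R := fun u v => R (some u) (some v)) (fun x => h1 _) (fun x y => h2 _ _)
        (fun x y z => h3 _ _ _) (fun u v huv => h4 _ _ (Or.inl ⟨_, huv, ?_⟩))
      rintro _ (rfl | rfl)
      · exact ⟨u, Or.inl rfl, rfl⟩
      · exact ⟨v, Or.inr rfl, rfl⟩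
    have h0 : R none (some (s ⟨0, ha.npos⟩)) := by
      refine h4 _ _ (Or.inr ?_)
      rintro _ (rfl | rfl)
      · exact Or.inl rfl
      · exact Or.inr ⟨_, ⟨_, rfl⟩, rfl⟩
    rintro (_ | u) (_ | v)
    · exact h1 _
    · exact h3 _ _ _ h0 (hs _ _)
    · exact h3 _ _ _ (hs _ _) (h2 _ _ h0)
    · exact hs _ _

theorem le_of_clique (h : Ext k dA V i d C) (hA : Met dA) : ∀ {p : V → V → ℝ},
    (∀ x y, p x y = p y x) → (∀ x y z, p x z ≤ p x y + p y z) →
    (∀ u v, C {u, v} → p u v ≤ d u v) → ∀ u v, p u v ≤ d u v := by
  induction h with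
  | base => intro p _ _ h u v; exact h u v trivial
  | @step V i d C n s δ h hn hC ha ih =>
    intro p h2 h3 h4
    have hs : ∀ u v, p (some u) (some v) ≤ d u v := by
      refine ih (p := fun u v => p (some u) (some v)) (fun x y => h2 _ _)
        (fun x y z => h3 _ _ _) (fun u v huv => h4 _ _ (Or.inl ⟨_, huv, ?_⟩))
      rintro _ (rfl | rfl)
      · exact ⟨u, Or.inl rfl, rfl⟩
      · exact ⟨v, Or.inr rfl, rfl⟩
    have h0 : ∀ j, p none (some (s j)) ≤ δ j := by
      intro j
      have h5 : p none (some (s j)) ≤ toNew d s δ (s j) := by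
        refine h4 _ _ (Or.inr ?_)
        rintro _ (rfl | rfl)
        · exact Or.inl rfl
        · exact Or.inr ⟨_, ⟨_, rfl⟩, rfl⟩
      have h6 := toNew_le (d := d) (s := s) (δ := δ) j (s j)
      rw [(h.met hA).self] at h6
      linarith
    have h1 : ∀ v, p none (some v) ≤ toNew d s δ v := by
      intro v
      refine le_toNew ha.npos fun j => ?_
      have := h3 none (some (s j)) (some v)
      have := h0 j
      have := hs (s j) v
      linarith
    rintro (_ | u) (_ | v)
    · refine h4 _ _ (Or.inr ?_)
      rintro _ (rfl | rfl) <;> exact Or.inl rfl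
    · exact h1 v
    · rw [h2]; exact h1 u
    · exact hs u v

theorem single (h : Ext k dA V i d C) : ∀ v, C {v, v} := by
  induction h with
  | base => intro _; trivial
  | @step V i d C n s δ h hn hC ha ih =>
    rintro (_ | v)
    · refine Or.inr ?_
      rintro _ (rfl | rfl) <;> exact Or.inl rfl
    · refine Or.inl ⟨_, ih v, ?_⟩
      rintro _ (rfl | rfl) <;> exact ⟨v, Or.inl rfl, rfl⟩

theorem tree (h : Ext k dA V i d C) [Finite A] (hA : Nat.card A ≤ k + 1) :
    ∃ (ι : Type) (_ : Finite ι) (T : SimpleGraph ι) (B : ι → Finset V), T.IsTree ∧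
      (∀ S, C S → ∃ t, S ⊆ ↑(B t)) ∧ (∀ v, (T.induce {t | v ∈ B t}).Preconnected) ∧
      (∀ t, (B t).card ≤ k + 1) := by
  induction h with
  | base =>
    have := Fintype.ofFinite A
    refine ⟨Unit, inferInstance, ⊥, fun _ => Finset.univ, SimpleGraph.IsTree.of_subsingleton,
      ?_, ?_, ?_⟩
    · intro S _
      exact ⟨(), by simp⟩
    · intro v
      rintro ⟨⟨⟩, _⟩ ⟨⟨⟩, _⟩
      exact SimpleGraph.Reachable.refl _
    · intro _
      rw [Finset.card_univ, ← Nat.card_eq_fintype_card]
      exact hA
  | @step V i d C n s δ h hn hC ha ih =>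
    classical
    obtain ⟨ι, _, T, B, hT, hcl, hpre, hcard⟩ := ih
    obtain ⟨t₀, ht₀⟩ := hcl _ hC
    set S : Finset V := Finset.univ.image s with hS
    have hSB : ∀ v ∈ S, v ∈ B t₀ := by
      intro v hv
      rw [hS, Finset.mem_image] at hv
      obtain ⟨j, _, rfl⟩ := hv
      exact ht₀ ⟨j, rfl⟩
    set B' : Option ι → Finset (Option V) := fun t =>
      match t with
      | none => Finset.insertNone S
      | some t => (B t).map Function.Embedding.some with hB'
    have m0 : ∀ t, none ∉ B' (some t) := by
      intro t ht
      rw [hB'] at ht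
      simp at ht
    have m1 : ∀ t v, some v ∈ B' (some t) ↔ v ∈ B t := by
      intro t v
      show some v ∈ (B t).map Function.Embedding.some ↔ _
      simp
    have m2 : none ∈ B' none := by
      show none ∈ Finset.insertNone S
      simp
    have m3 : ∀ v, some v ∈ B' none ↔ v ∈ S := by
      intro v
      show some v ∈ Finset.insertNone S ↔ _
      simp
    refine ⟨Option ι, inferInstance, leaf T t₀, B', leaf_isTree hT t₀, ?_, ?_, ?_⟩
    · rintro U (⟨T₀, hT₀, hU⟩ | hU)
      · obtain ⟨t, ht⟩ := hcl _ hT₀
        refine ⟨some t, ?_⟩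
        intro x hx
        obtain ⟨y, hy, rfl⟩ := hU hx
        exact (m1 t y).2 (ht hy)
      · refine ⟨none, ?_⟩
        intro x hx
        rcases hU hx with rfl | ⟨y, ⟨j, rfl⟩, rfl⟩
        · exact m2
        · exact (m3 _).2 (Finset.mem_image_of_mem _ (Finset.mem_univ _))
    · rintro (_ | v)
      · rintro ⟨t, ht⟩ ⟨t', ht'⟩
        rcases t with _ | t
        · rcases t' with _ | t'
          · exact SimpleGraph.Reachable.refl _
          · exact absurd ht' (m0 t')
        · exact absurd ht (m0 t)
      · set P := (leaf T t₀).induce {t | some v ∈ B' t} with hP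
        have hf : ∀ (a b : ι) (hav : v ∈ B a) (hbv : v ∈ B b),
            P.Reachable ⟨some a, (m1 a v).2 hav⟩ ⟨some b, (m1 b v).2 hbv⟩ := by
          intro a b hav hbv
          exact (hpre v ⟨a, hav⟩ ⟨b, hbv⟩).map
            (⟨fun t => ⟨some t.1, (m1 t.1 v).2 t.2⟩, fun {a b} h => h⟩ :
              T.induce {t | v ∈ B t} →g P)
        have h0 : ∀ (hv : some v ∈ B' none), P.Reachable ⟨none, hv⟩
            ⟨some t₀, (m1 t₀ v).2 (hSB v ((m3 v).1 hv))⟩ := by
          intro hv
          refine SimpleGraph.Adj.reachable ?_
          show t₀ = t₀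
          rfl
        rintro ⟨t, ht⟩ ⟨t', ht'⟩
        rcases t with _ | t <;> rcases t' with _ | t'
        · exact SimpleGraph.Reachable.refl _
        · exact (h0 ht).trans (hf _ _ (hSB v ((m3 v).1 ht)) ((m1 t' v).1 ht'))
        · exact (hf _ _ ((m1 t v).1 ht) (hSB v ((m3 v).1 ht'))).trans (h0 ht').symm
        · exact hf _ _ ((m1 t v).1 ht) ((m1 t' v).1 ht')
    · rintro (_ | t)
      · show (Finset.insertNone S).card ≤ k + 1
        rw [Finset.card_insertNone]
        have : S.card ≤ n := by
          refine Finset.card_image_le.trans ?_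
          simp
        omega
      · show ((B t).map Function.Embedding.some).card ≤ k + 1
        rw [Finset.card_map]
        exact hcard t

/-- the space is the path metric of a connected graph of treewidth at most `k` -/
theorem graph (h : Ext k dA V i d C) [Finite A] [Nonempty A] (hA : Nat.card A ≤ k + 1)
    (hm : Met dA) :
    ∃ G : SimpleGraph V, G.Connected ∧ TreewidthLE G k ∧ (∀ e ∈ G.edgeSet, 0 < len d e) ∧
      pathDist G (len d) = d := by
  have hd := h.met hm
  have := h.finite
  have hne := h.nonempty
  have hconn : (clG C).Connected := by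
    rw [SimpleGraph.connected_iff]
    refine ⟨?_, hne⟩
    intro u v
    refine h.rel (R := fun u v => (clG C).Reachable u v) (fun x => SimpleGraph.Reachable.refl _)
      (fun x y hxy => hxy.symm) (fun x y z hxy hyz => hxy.trans hyz) ?_ u v
    intro u v huv
    by_cases e : u = v
    · subst e; exact SimpleGraph.Reachable.refl _
    · exact SimpleGraph.Adj.reachable (G := clG C) ⟨e, huv⟩
  have hℓ : ∀ e ∈ (clG C).edgeSet, 0 < len d e := by
    intro e
    induction e using Sym2.inductionOn with
    | hf a b =>
      intro he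
      rw [len_mk hd.symm]
      exact hd.pos _ _ (SimpleGraph.ne_of_adj _ ((SimpleGraph.mem_edgeSet _).1 he))
  refine ⟨clG C, hconn, ?_, hℓ, ?_⟩
  · obtain ⟨ι, hι, T, B, hT, hcl, hpre, hcard⟩ := h.tree hA
    have hpair : ∀ v, C {v, v} := h.single
    refine ⟨ι, hι, T, B, hT, ?_, ?_, hpre, hcard⟩
    · intro v
      obtain ⟨t, ht⟩ := hcl _ (hpair v)
      exact ⟨t, ht (Or.inl rfl)⟩
    · intro u v huv
      obtain ⟨t, ht⟩ := hcl _ huv.2
      exact ⟨t, ht (Or.inl rfl), ht (Or.inr rfl)⟩
  · have hp := pathDist_isMet hconn hℓ
    funext x y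
    apply le_antisymm
    · refine h.le_of_clique hm hp.symm hp.tri ?_ x y
      intro u v huv
      by_cases e : u = v
      · subst e; rw [hp.self, hd.self]
      · refine (pathDist_adj hℓ (show (clG C).Adj u v from ⟨e, huv⟩)).trans ?_
        rw [len_mk hd.symm]
    · have := pathDist_semi (ρ := d) (ℓ := len d) (K := 1) hconn one_pos hd.self hd.tri
        (fun u v _ => by rw [len_mk hd.symm, one_mul]) x y
      rwa [one_mul] at this

end Ext

end Vale.Agent.P235.TL
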