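import Vale.Agent.P235.H150.Graph

set_option linter.all false

/-! The laws that no extension can break. -/

namespace Vale.Agent.P235.TL

open Set

/-- `R` is a combination of cuts with `d / D ≤ R ≤ d` -/
structure Adm (D : ℝ) {V : Type} (d R : V → V → ℝ) : Prop where
  l1 : IsL1 R
  low : ∀ x y, d x y ≤ D * R x y
  up : ∀ x y, R x y ≤ d x y

theorem Adm.comap {D : ℝ} {V W : Type} {d R : V → V → ℝ} {e : W → W → ℝ} (h : Adm D d R)
    {f : W → V} (hf : ∀ x y, d (f x) (f y) = e x y) : Adm D e (fun x y => R (f x) (f y)) :=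
  ⟨h.l1.comap f, fun x y => by rw [← hf]; exact h.low _ _,
    fun x y => by rw [← hf]; exact h.up _ _⟩

/-- cut combination with weights `w` -/
noncomputable def wsum {V : Type} (w : (V → Bool) → ℝ) (x y : V) : ℝ :=
  ∑ᶠ c : V → Bool, w c * (if c x = c y then 0 else 1)

theorem wsum_eq {V : Type} [Fintype (V → Bool)] (w : (V → Bool) → ℝ) (x y : V) :
    wsum w x y = ∑ c : V → Bool, w c * (if c x = c y then 0 else 1) :=
  finsum_eq_sum_of_fintype _

theorem wsum_continuous {V : Type} [Finite V] :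
    Continuous (fun w : (V → Bool) → ℝ => (wsum w : V → V → ℝ)) := by
  classical
  have := Fintype.ofFinite V
  refine continuous_pi fun x => continuous_pi fun y => ?_
  simp only [wsum_eq]
  refine continuous_finset_sum _ fun c _ => ?_
  exact (continuous_apply c).mul continuous_const

theorem wsum_isL1 {V : Type} [Finite V] {w : (V → Bool) → ℝ} (hw : ∀ c, 0 ≤ w c) :
    IsL1 (wsum w) := by
  classical
  have := Fintype.ofFinite V
  exact ⟨V → Bool, inferInstance, w, fun c => c, hw, fun x y => wsum_eq w x y⟩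

theorem exists_wsum {V : Type} [Finite V] {R : V → V → ℝ} (h : IsL1 R) {M : ℝ} (hM : 0 ≤ M)
    (hR : ∀ x y, R x y ≤ M) : ∃ w : (V → Bool) → ℝ, (∀ c, w c ∈ Set.Icc 0 M) ∧ wsum w = R := by
  classical
  have := Fintype.ofFinite V
  obtain ⟨ι, _, w, c, hw, hF⟩ := h
  set w' : (V → Bool) → ℝ := fun χ =>
    if ∃ x y, χ x ≠ χ y then ∑ i with c i = χ, w i else 0 with hw'
  have h0 : ∀ χ, 0 ≤ w' χ := by
    intro χ
    rw [hw']
    dsimp only
    split_ifs
    · exact Finset.sum_nonneg fun i _ => hw i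
    · exact le_rfl
  have hs : wsum w' = R := by
    funext x y
    rw [wsum_eq, hF]
    rw [← Finset.sum_fiberwise_of_maps_to (s := Finset.univ) (t := Finset.univ) (g := c)
      (fun i _ => Finset.mem_univ _)]
    refine Finset.sum_congr rfl fun χ _ => ?_
    rw [hw']
    dsimp only
    by_cases hχ : ∃ x y, χ x ≠ χ y
    · rw [if_pos hχ, Finset.sum_mul]
      refine Finset.sum_congr rfl fun i hi => ?_
      rw [(Finset.mem_filter.1 hi).2]
    · rw [if_neg hχ, zero_mul]
      symm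
      refine Finset.sum_eq_zero fun i hi => ?_
      have : c i x = c i y := by
        rw [(Finset.mem_filter.1 hi).2]
        by_contra hne
        exact hχ ⟨x, y, hne⟩
      rw [if_pos this, mul_zero]
  refine ⟨w', fun χ => ⟨h0 χ, ?_⟩, hs⟩
  by_cases hχ : ∃ x y, χ x ≠ χ y
  · obtain ⟨x, y, hxy⟩ := hχ
    refine le_trans ?_ (hR x y)
    rw [← hs, wsum_eq]
    have h1 : w' χ = w' χ * (if χ x = χ y then 0 else 1) := by rw [if_neg hxy, mul_one]
    rw [h1]
    refine Finset.single_le_sum (f := fun c => w' c * (if c x = c y then (0 : ℝ) else 1))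
      (fun c _ => ?_) (Finset.mem_univ χ)
    refine mul_nonneg (h0 c) ?_
    split_ifs <;> norm_num
  · have : w' χ = 0 := by rw [hw']; dsimp only; rw [if_neg hχ]
    rw [this]; exact hM

theorem isCompact_adm {V : Type} [Finite V] (D : ℝ) (d : V → V → ℝ) :
    IsCompact {R | Adm D d R} := by
  classical
  have := Fintype.ofFinite V
  set M : ℝ := ∑ x, ∑ y, |d x y| with hM
  have hM0 : 0 ≤ M := Finset.sum_nonneg fun x _ => Finset.sum_nonneg fun y _ => abs_nonneg _
  have hle : ∀ x y, d x y ≤ M := by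
    intro x y
    refine (le_abs_self _).trans ?_
    refine (Finset.single_le_sum (f := fun y => |d x y|) (fun y _ => abs_nonneg _)
      (Finset.mem_univ y)).trans ?_
    exact Finset.single_le_sum (f := fun x => ∑ y, |d x y|)
      (fun x _ => Finset.sum_nonneg fun y _ => abs_nonneg _) (Finset.mem_univ x)
  set K : Set ((V → Bool) → ℝ) := (Set.pi Set.univ fun _ => Set.Icc 0 M) ∩
    {w | ∀ x y, d x y ≤ D * wsum w x y ∧ wsum w x y ≤ d x y} with hK
  have hc : ∀ x y, Continuous fun w : (V → Bool) → ℝ => wsum w x y := fun x y =>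
    (continuous_apply y).comp ((continuous_apply x).comp wsum_continuous)
  have hKc : IsCompact K := by
    refine (isCompact_univ_pi fun _ => isCompact_Icc).inter_right ?_
    simp only [Set.setOf_forall]
    refine isClosed_iInter fun x => isClosed_iInter fun y => ?_
    exact (isClosed_le continuous_const (continuous_const.mul (hc x y))).inter
      (isClosed_le (hc x y) continuous_const)
  have he : {R | Adm D d R} = (fun w => (wsum w : V → V → ℝ)) '' K := by
    ext R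
    constructor
    · intro h
      obtain ⟨w, hw, hwR⟩ := exists_wsum h.l1 hM0 (fun x y => (h.up x y).trans (hle x y))
      refine ⟨w, ⟨fun c _ => hw c, fun x y => ?_⟩, hwR⟩
      rw [hwR]
      exact ⟨h.low x y, h.up x y⟩
    · rintro ⟨w, ⟨hw, hw2⟩, rfl⟩
      exact ⟨wsum_isL1 fun c => (hw c trivial).1, fun x y => (hw2 x y).1, fun x y => (hw2 x y).2⟩
  rw [he]
  exact hKc.image wsum_continuous

/-- metrics on `A` which extend to admissible ones on every space over `(A, dA)` -/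
def KK (k : ℕ) (D : ℝ) {A : Type} (dA : A → A → ℝ) : Set (A → A → ℝ) :=
  {ρ | ∀ (V : Type) (i : A → V) (d : V → V → ℝ) (C : Set V → Prop), Ext k dA V i d C →
    ∃ R, Adm D d R ∧ ∀ a b, R (i a) (i b) = ρ a b}

/-- restrictions to the base of admissible metrics which extend `ρ` -/
def FF (D : ℝ) {A B V : Type} (ι : A → B) (ρ : A → A → ℝ) (i : B → V) (d : V → V → ℝ) :
    Set (B → B → ℝ) :=
  {r | (∃ R, Adm D d R ∧ ∀ a b, R (i a) (i b) = r a b) ∧ ∀ a b, r (ι a) (ι b) = ρ a b}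

theorem FF_compact {D : ℝ} {A B V : Type} [Finite V] (ι : A → B) (ρ : A → A → ℝ) (i : B → V)
    (d : V → V → ℝ) : IsCompact (FF D ι ρ i d) := by
  have h1 : IsCompact ((fun R : V → V → ℝ => fun a b => R (i a) (i b)) '' {R | Adm D d R}) := by
    refine (isCompact_adm D d).image ?_
    refine continuous_pi fun a => continuous_pi fun b => ?_
    exact (continuous_apply (i b)).comp (continuous_apply (i a))
  have h2 : IsClosed {r : B → B → ℝ | ∀ a b, r (ι a) (ι b) = ρ a b} := by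
    simp only [Set.setOf_forall]
    refine isClosed_iInter fun a => isClosed_iInter fun b => ?_
    exact isClosed_eq ((continuous_apply (ι b)).comp (continuous_apply (ι a))) continuous_const
  have e : FF D ι ρ i d = ((fun R : V → V → ℝ => fun a b => R (i a) (i b)) '' {R | Adm D d R}) ∩
      {r : B → B → ℝ | ∀ a b, r (ι a) (ι b) = ρ a b} := by
    ext r
    constructor
    · rintro ⟨⟨R, hR, h⟩, h'⟩
      exact ⟨⟨R, hR, by funext a b; exact h a b⟩, h'⟩
    · rintro ⟨⟨R, hR, rfl⟩, h'⟩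
      exact ⟨⟨R, hR, fun a b => rfl⟩, h'⟩
  rw [e]
  exact h1.inter_right h2

/-- all graphs of treewidth at most `k` embed with distortion `D` -/
def Hyp (k : ℕ) (D : ℝ) : Prop :=
  ∀ (V : Type) [Finite V] (G : SimpleGraph V), G.Connected → TreewidthLE G k → DistortionLE G D

section

variable {k : ℕ} {D : ℝ}

theorem exists_adm (H : Hyp k D) (hD : 0 < D) {A : Type} [Finite A] [Nonempty A]
    (hA : Nat.card A ≤ k + 1) {dA : A → A → ℝ} (hm : Met dA) {V : Type} {i : A → V}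
    {d : V → V → ℝ} {C : Set V → Prop} (h : Ext k dA V i d C) : ∃ R, Adm D d R := by
  obtain ⟨G, h1, h2, h3, h4⟩ := h.graph hA hm
  have := h.finite
  have h5 := H V G h1 h2 (len d) h3
  rw [h4] at h5
  obtain ⟨ρ, hρ, h6, h7, -⟩ := h5.toL1S
  refine ⟨fun x y => D⁻¹ * ρ x y, hρ.isL1.smul (by positivity), fun x y => ?_, fun x y => ?_⟩
  · rw [← mul_assoc, mul_inv_cancel₀ hD.ne', one_mul]; exact h6 x y
  · rw [inv_mul_le_iff₀ hD]; exact h7 x y

theorem KK.adm {A : Type} {dA ρ : A → A → ℝ} (h : ρ ∈ KK k D dA) : Adm D dA ρ := by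
  obtain ⟨R, hR, h'⟩ := h A id dA _ Ext.base
  have : R = ρ := by funext a b; exact h' a b
  rwa [this] at hR

theorem KK.closed {A : Type} [Finite A] (dA : A → A → ℝ) : IsClosed (KK k D dA) := by
  unfold KK
  simp only [Set.setOf_forall]
  refine isClosed_iInter fun V => isClosed_iInter fun i => isClosed_iInter fun d =>
    isClosed_iInter fun C => isClosed_iInter fun h => ?_
  have := h.finite
  have hc := (FF_compact (D := D) (Empty.elim : Empty → A) (fun a _ => a.elim) i d).isClosed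
  have e : {a : A → A → ℝ | ∃ R, Adm D d R ∧ ∀ (a_1 b : A), R (i a_1) (i b) = a a_1 b} =
      FF D (Empty.elim : Empty → A) (fun a _ => a.elim) i d := by
    ext r
    constructor
    · intro h; exact ⟨h, fun a => a.elim⟩
    · intro h; exact h.1
  rw [e]; exact hc

theorem KK.compact {A : Type} [Finite A] (dA : A → A → ℝ) : IsCompact (KK k D dA) :=
  (isCompact_adm D dA).of_isClosed_subset (KK.closed dA) fun _ h => KK.adm h

theorem KK.restrict {A B : Type} {dA : A → A → ℝ} {ρ : A → A → ℝ} (h : ρ ∈ KK k D dA)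
    (ι : B → A) : (fun x y => ρ (ι x) (ι y)) ∈ KK k D (fun x y => dA (ι x) (ι y)) := by
  intro V iV dV CV hV
  obtain ⟨W', iW', dW', CW', hW', j, ψ, h1, h2, h3, h4, h5⟩ :=
    Ext.amalgam (k := k) (dA := dA) Ext.base (φ := ι) (fun _ _ => rfl) trivial hV
  obtain ⟨R, hR, hR'⟩ := h _ _ _ _ hW'
  refine ⟨_, hR.comap h3, fun a b => ?_⟩
  show R (ψ (iV a)) (ψ (iV b)) = ρ (ι a) (ι b)
  rw [h4, h4, ← hR', ← h1, ← h1]
  rfl

theorem KK.scale {A : Type} {dA : A → A → ℝ} {ρ : A → A → ℝ} (h : ρ ∈ KK k D dA) {c : ℝ}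
    (hc : 0 < c) : (fun x y => c * ρ x y) ∈ KK k D (fun x y => c * dA x y) := by
  intro V i d C hV
  have h1 := hV.scale (inv_pos.2 hc)
  have e : (fun a b => c⁻¹ * (c * dA a b)) = dA := by
    funext a b
    rw [← mul_assoc, inv_mul_cancel₀ hc.ne', one_mul]
  rw [e] at h1
  obtain ⟨R, hR, hR'⟩ := h _ _ _ _ h1
  refine ⟨fun x y => c * R x y, ⟨hR.l1.smul hc.le, fun x y => ?_, fun x y => ?_⟩, fun a b => ?_⟩
  · have := mul_le_mul_of_nonneg_left (hR.low x y) hc.le
    rw [← mul_assoc, mul_inv_cancel₀ hc.ne', one_mul] at this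
    linarith
  · have := mul_le_mul_of_nonneg_left (hR.up x y) hc.le
    rw [← mul_assoc, mul_inv_cancel₀ hc.ne', one_mul] at this
    exact this
  · show c * R (i a) (i b) = c * ρ a b
    rw [hR']

/-- directed intersection -/
theorem FF_inter {A B : Type} [Finite B] {dB : B → B → ℝ} {ι : A → B} {ρ : A → A → ℝ}
    (hne : ∀ (V : Type) (i : B → V) (d : V → V → ℝ) (C : Set V → Prop), Ext k dB V i d C →
      (FF D ι ρ i d).Nonempty) :
    ∃ r ∈ KK k D dB, ∀ a b, r (ι a) (ι b) = ρ a b := by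
  set S : Set (Set (B → B → ℝ)) := {F | ∃ (V : Type) (i : B → V) (d : V → V → ℝ)
    (C : Set V → Prop), Ext k dB V i d C ∧ F = FF D ι ρ i d} with hS
  have hSne : Nonempty S := ⟨⟨_, B, id, dB, _, Ext.base, rfl⟩⟩
  have hcomp : ∀ U ∈ S, IsCompact U := by
    rintro _ ⟨V, i, d, C, h, rfl⟩
    have := h.finite
    exact FF_compact _ _ _ _
  have hdir : DirectedOn (· ⊇ ·) S := by
    rintro _ ⟨V₁, i₁, d₁, C₁, h₁, rfl⟩ _ ⟨V₂, i₂, d₂, C₂, h₂, rfl⟩
    obtain ⟨W', iW', dW', CW', hW', j, ψ, e1, e2, e3, e4, e5⟩ := h₁.amalgam h₁.iso h₁.rangeC h₂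
    refine ⟨_, ⟨W', iW', dW', CW', hW', rfl⟩, ?_, ?_⟩
    · rintro r ⟨⟨R, hR, hr⟩, h'⟩
      refine ⟨⟨_, hR.comap e2, fun a b => ?_⟩, h'⟩
      show R (j (i₁ a)) (j (i₁ b)) = r a b
      rw [e1, e1, hr]
    · rintro r ⟨⟨R, hR, hr⟩, h'⟩
      refine ⟨⟨_, hR.comap e3, fun a b => ?_⟩, h'⟩
      show R (ψ (i₂ a)) (ψ (i₂ b)) = r a b
      rw [e4, e4, e1, e1, hr]
  have hSn : ∀ U ∈ S, U.Nonempty := by
    rintro _ ⟨V, i, d, C, h, rfl⟩
    exact hne V i d C h
  obtain ⟨r, hr⟩ := IsCompact.nonempty_sInter_of_directed_nonempty_isCompact_isClosed hdir hSn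
    hcomp (fun U hU => (hcomp U hU).isClosed)
  refine ⟨r, fun V i d C h => ?_, ?_⟩
  · exact (hr _ ⟨V, i, d, C, h, rfl⟩).1
  · exact (hr _ ⟨B, id, dB, _, Ext.base, rfl⟩).2

theorem KK.nonempty (H : Hyp k D) (hD : 0 < D) {A : Type} [Finite A] [Nonempty A]
    (hA : Nat.card A ≤ k + 1) {dA : A → A → ℝ} (hm : Met dA) : ∃ r, r ∈ KK k D dA := by
  obtain ⟨r, hr, -⟩ := FF_inter (k := k) (D := D) (dB := dA) (ι := (Empty.elim : Empty → A))
    (ρ := fun a _ => a.elim) (fun V i d C h => by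
      obtain ⟨R, hR⟩ := exists_adm H hD hA hm h
      exact ⟨fun a b => R (i a) (i b), ⟨R, hR, fun a b => rfl⟩, fun a => a.elim⟩)
  exact ⟨r, hr⟩

theorem KK.extend {A B : Type} [Finite B] [Nonempty A] {dB : B → B → ℝ} (hB : Met dB)
    {ι : A → B} (hι : Function.Injective ι) (hcard : Nat.card B ≤ k + 1) {ρ : A → A → ℝ}
    (hρ : ρ ∈ KK k D (fun a b => dB (ι a) (ι b))) :
    ∃ r ∈ KK k D dB, ∀ a b, r (ι a) (ι b) = ρ a b := by
  refine FF_inter fun V iV dV CV hV => ?_
  obtain ⟨W, iW, dW, CW, hW, φ, f1, f2, f3⟩ := grow (k := k) hB hι hcard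
  obtain ⟨W', iW', dW', CW', hW', j, ψ, e1, e2, e3, e4, e5⟩ := hW.amalgam f1 f2 hV
  obtain ⟨R, hR, hR'⟩ := hρ _ _ _ _ hW'
  refine ⟨fun a b => R (ψ (iV a)) (ψ (iV b)), ⟨_, hR.comap e3, fun a b => rfl⟩, fun a b => ?_⟩
  show R (ψ (iV (ι a))) (ψ (iV (ι b))) = ρ a b
  rw [e4, e4, f3, f3, e1, e1, hR']

end

end Vale.Agent.P235.TL
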