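import Vale.Agent.P235.H150.Slab

set_option linter.all false

/-! The energy argument. -/

namespace Vale.Agent.P235.TL

open Set

theorem En_congr {m nc : ℕ} {A : Type} {P P' Q Q' : ℕ → A}
    (hP : ∀ i, i ≤ nc + 4 * m → P i = P' i) (hQ : ∀ i, i ≤ nc + 4 * m → Q i = Q' i) :
    En m nc P Q = En m nc P' Q' := by
  unfold En
  refine Finset.sum_congr rfl fun b hb => ?_
  rw [Finset.mem_range] at hb
  rw [hP _ (by omega), hP _ (by omega)]
  congr 1
  refine Finset.sum_congr rfl fun l hl => ?_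
  rw [Finset.mem_range] at hl
  rw [hQ _ (by omega)]

variable {k : ℕ} {D : ℝ}

theorem card_slab (L : Type) [Fintype L] (n : ℕ) :
    Nat.card (L × Fin (n + 1)) = Fintype.card L * (n + 1) := by
  rw [Nat.card_eq_fintype_card, Fintype.card_prod, Fintype.card_fin]

/-- saturation of a piece of a geodesic -/
theorem sat_piece {V : Type} {d ρ : V → V → ℝ} {q : ℝ} (hρ : ∀ x y, ρ x y ≤ q * d x y)
    (htri : ∀ x y z, ρ x z ≤ ρ x y + ρ y z) {s t u v : V} (hst : ρ s t = q * d s t)
    (h : d s u + d u v + d v t = d s t) : ρ u v = q * d u v := by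
  apply le_antisymm (hρ _ _)
  have h1 := htri s u t
  have h2 := htri u v t
  have h3 := hρ s u
  have h4 := hρ v t
  rw [hst, ← h] at h1
  linarith

theorem energy (H : Hyp k D) (hD : 1 ≤ D) {m nc : ℕ} (hm : 1 ≤ m) (hnc : m ≤ nc)
    (hk : 4 * (2 * (nc + 4 * m) + 1) ≤ k + 1) {t : ℝ} (ht : 0 ≤ t) :
    2 * t * ((2 * nc - 2 * m) * (2 * m / D)) ≤
      (4 * m + 1 + t ^ 2) * (2 * nc) + 2 * (m : ℝ) ^ 2 * (m + m) := by
  have hD0 : 0 < D := by linarith
  obtain ⟨q, hq0, hq1, ⟨ρ₀, hρ₀, hρ₀q⟩, hq⟩ := exists_q H hD (by omega)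
  set N := nc + 4 * m with hN
  have m1 : Met (slab (σ₁ m) N) := slab_met (σ₁_met hm) N
  have m2 : Met (slab (σ₂ m) (2 * N)) := slab_met (σ₂_met hm) (2 * N)
  have c1 : Nat.card (Bool × Fin (N + 1)) ≤ k + 1 := by
    rw [card_slab, Fintype.card_bool]; omega
  have c2 : Nat.card ((Bool × Bool) × Fin (2 * N + 1)) ≤ k + 1 := by
    rw [card_slab, Fintype.card_prod, Fintype.card_bool]; omega
  have hNpos : 0 < N := by omega
  have hNpos' : (0 : ℝ) < N := by exact_mod_cast hNpos
  -- the set of saturated laws of the window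
  set M : Set ((Bool × Fin (N + 1)) → (Bool × Fin (N + 1)) → ℝ) :=
    {ρ | ρ ∈ KK k D (slab (σ₁ m) N) ∧ ρ (pt N false 0) (pt N false N) = q * N} with hM
  have hMne : M.Nonempty := by
    have e : (fun x y : Bool => (N : ℝ) * pr 1 x y) = fun a b : Bool =>
        slab (σ₁ m) N (pt N false (if a then N else 0)) (pt N false (if b then N else 0)) := by
      funext a b
      have z : slab (σ₁ m) N (pt N false 0) (pt N false N) = N := by
        rw [slab_pt (Nat.zero_le _) le_rfl, (σ₁_met hm).self]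
        simp
      rcases a <;> rcases b
      · simp [pr, m1.self]
      · simp [pr, z]
      · simp [pr, m1.symm (pt N false N) (pt N false 0), z]
      · simp [pr, m1.self]
    have h1 := KK.scale hρ₀ hNpos'
    rw [e] at h1
    have hinj : Function.Injective
        (fun a : Bool => (pt N false (if a then N else 0) : Bool × Fin (N + 1))) := by
      intro a b hab
      have h2 : (min (if a = true then N else 0) N : ℕ) = min (if b = true then N else 0) N :=
        congrArg (fun p : Bool × Fin (N + 1) => p.2.val) hab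
      rcases a <;> rcases b <;> simp at h2 <;> first | rfl | omega
    obtain ⟨r, hr, hr'⟩ := KK.extend m1 hinj c1 h1
    refine ⟨r, hr, ?_⟩
    have := hr' false true
    simp only [Bool.false_eq_true, if_false, if_true] at this
    rw [this, hρ₀q]
    ring
  have hMc : IsCompact M := by
    refine (KK.compact (k := k) (D := D) (slab (σ₁ m) N)).inter_right ?_
    exact isClosed_eq ((continuous_apply _).comp (continuous_apply _)) continuous_const
  have hEc : Continuous fun r => En m nc (fun i => (pt N false i : Bool × Fin (N + 1)))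
      (fun i => pt N true i) r := by
    simp only [En_apply]
    refine continuous_finset_sum _ fun b _ => ?_
    have hev : ∀ p r : Bool × Fin (N + 1),
        Continuous fun ρ : (Bool × Fin (N + 1)) → (Bool × Fin (N + 1)) → ℝ => ρ p r :=
      fun p r => (continuous_apply r).comp (continuous_apply p)
    refine Continuous.add (continuous_finset_sum _ fun l _ => ?_) ?_
    · exact continuous_const.mul ((hev _ _).sub (hev _ _))
    · exact continuous_const.mul (hev _ _)
  obtain ⟨ρs, hρs, hmax⟩ := hMc.exists_isMaxOn hMne hEc.continuousOn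
  set E : ℝ := En m nc (fun i => (pt N false i : Bool × Fin (N + 1))) (fun i => pt N true i) ρs
    with hE
  have hmax' : ∀ r ∈ M, En m nc (fun i => (pt N false i : Bool × Fin (N + 1)))
      (fun i => pt N true i) r ≤ E := fun r hr => hmax hr
  -- extension to the refined window
  set em : Bool × Fin (N + 1) → (Bool × Bool) × Fin (2 * N + 1) :=
    fun p => ((p.1, p.1), ⟨2 * p.2.val, by omega⟩) with hem
  have hemd : (fun a b => (2 : ℝ) * slab (σ₁ m) N a b) =
      fun a b => slab (σ₂ m) (2 * N) (em a) (em b) := by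
    funext a b
    unfold slab σ₂
    dsimp only [em]
    rw [mul_max_of_nonneg _ _ (by norm_num : (0 : ℝ) ≤ 2)]
    congr 1
    · push_cast
      rw [← mul_sub, abs_mul, abs_two]
    · push_cast; ring
  have hemi : Function.Injective em := by
    rintro ⟨a, i⟩ ⟨b, j⟩ h
    have h1 : a = b := congrArg (fun p => p.1.1) h
    have h2 : 2 * i.val = 2 * j.val := congrArg (fun p => p.2.val) h
    exact Prod.ext h1 (Fin.ext (show i.val = j.val by omega))
  have h2ρ := KK.scale hρs.1 (by norm_num : (0 : ℝ) < 2)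
  rw [hemd] at h2ρ
  obtain ⟨r, hr, hr'⟩ := KK.extend m2 hemi c2 h2ρ
  have hrq := hq m2 hr
  have hrl1 := (KK.adm hr).l1
  have hrtri := hrl1.tri
  set x : Bool × Bool := (false, false) with hx
  set y : Bool × Bool := (true, true) with hy
  set z₁ : Bool × Bool := (false, true) with hz₁
  set z₂ : Bool × Bool := (true, false) with hz₂
  have hemf : ∀ i, em (pt N false i) = pt (2 * N) x (2 * i) := by
    intro i
    refine Prod.ext rfl (Fin.ext ?_)
    show 2 * min i N = min (2 * i) (2 * N)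
    omega
  have hemt : ∀ i, em (pt N true i) = pt (2 * N) y (2 * i) := by
    intro i
    refine Prod.ext rfl (Fin.ext ?_)
    show 2 * min i N = min (2 * i) (2 * N)
    omega
  have hdst : slab (σ₂ m) (2 * N) (pt (2 * N) x 0) (pt (2 * N) x (2 * N)) = ((2 * N : ℕ) : ℝ) := by
    rw [slab_pt (Nat.zero_le _) le_rfl, (σ₂_met hm).self]
    simp
  have hst : r (pt (2 * N) x 0) (pt (2 * N) x (2 * N)) =
      q * slab (σ₂ m) (2 * N) (pt (2 * N) x 0) (pt (2 * N) x (2 * N)) := by
    have h1 := hr' (pt N false 0) (pt N false N)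
    rw [hemf, hemf, hρs.2, mul_zero] at h1
    rw [h1, hdst]
    push_cast; ring
  -- children
  have child : ∀ (l₀ l₁ : Bool × Bool) (s : ℕ), σ₂ m l₀ l₁ = m → σ₂ m x l₀ ≤ m → 2 * m ≤ s →
      s ≤ nc + 2 * m → En m nc (fun i => pt (2 * N) l₀ (i + s)) (fun i => pt (2 * N) l₁ (i + s)) r
        ≤ E := by
    intro l₀ l₁ s h01 hx0 hs1 hs2
    set ch : Bool × Fin (N + 1) → (Bool × Bool) × Fin (2 * N + 1) :=
      fun p => (if p.1 then l₁ else l₀, ⟨p.2.val + s, by omega⟩) with hch
    have hchd : (fun a b => slab (σ₂ m) (2 * N) (ch a) (ch b)) = slab (σ₁ m) N := by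
      funext a b
      unfold slab
      dsimp only [ch]
      congr 1
      · push_cast; congr 1; ring
      · have h3 : σ₂ m l₁ l₀ = m := by rw [(σ₂_met hm).symm]; exact h01
        rcases a with ⟨a, i⟩
        rcases b with ⟨b, j⟩
        rcases a <;> rcases b <;> simp [(σ₂_met hm).self, h01, h3, σ₁]
    have hr1 := KK.restrict hr ch
    rw [hchd] at hr1
    have hc0 : ∀ i, i ≤ nc + 4 * m → ch (pt N false i) = pt (2 * N) l₀ (i + s) := by
      intro i hi
      refine Prod.ext rfl (Fin.ext ?_)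
      show min i N + s = min (i + s) (2 * N)
      omega
    have hc1 : ∀ i, i ≤ nc + 4 * m → ch (pt N true i) = pt (2 * N) l₁ (i + s) := by
      intro i hi
      refine Prod.ext rfl (Fin.ext ?_)
      show min i N + s = min (i + s) (2 * N)
      omega
    have hmem : (fun a b => r (ch a) (ch b)) ∈ M := by
      refine ⟨hr1, ?_⟩
      show r (ch (pt N false 0)) (ch (pt N false N)) = q * N
      rw [hc0 0 (by omega), hc0 N (by omega)]
      have hself := (σ₂_met hm).self l₀
      rw [sat_piece hrq hrtri hst (slab_geo (σ₂_met hm) (x := x) (u := l₀) (v := l₀)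
        (h := 0 + s) (h' := N + s) (by omega) (by omega) (by omega)),
        slab_pt (by omega) (by omega), hself]
      push_cast
      rw [max_eq_left (by linarith)]
      ring
    have h4 := hmax' _ hmem
    rw [En_comp] at h4
    rwa [En_congr hc0 hc1] at h4
  -- decomposition into cuts
  obtain ⟨ι, _, w, c, hw, hsum⟩ := hrl1
  have hsum' : ∀ x y, r x y = ∑ i, w i * ind (c i) x y := fun x y => hsum x y
  have hrs : r = ∑ i, w i • ind (c i) := by
    funext a b
    rw [hsum', Finset.sum_apply, Finset.sum_apply]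
    rfl
  set X : ℕ → (Bool × Bool) × Fin (2 * N + 1) := pt (2 * N) x with hX
  set Y : ℕ → (Bool × Bool) × Fin (2 * N + 1) := pt (2 * N) y with hY
  set Z₁ : ℕ → (Bool × Bool) × Fin (2 * N + 1) := pt (2 * N) z₁ with hZ₁
  set Z₂ : ℕ → (Bool × Bool) × Fin (2 * N + 1) := pt (2 * N) z₂ with hZ₂
  set Φ : (((Bool × Bool) × Fin (2 * N + 1)) → ((Bool × Bool) × Fin (2 * N + 1)) → ℝ) →ₗ[ℝ] ℝ :=
    (En m nc (fun i => X (i + 2 * m)) (fun i => Z₁ (i + 2 * m)) +
      En m nc (fun i => X (i + (nc + 2 * m))) (fun i => Z₁ (i + (nc + 2 * m)))) +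
    (En m nc (fun i => X (i + 2 * m)) (fun i => Z₂ (i + 2 * m)) +
      En m nc (fun i => X (i + (nc + 2 * m))) (fun i => Z₂ (i + (nc + 2 * m)))) +
    (En m nc (fun i => Z₁ (i + 2 * m)) (fun i => Y (i + 2 * m)) +
      En m nc (fun i => Z₁ (i + (nc + 2 * m))) (fun i => Y (i + (nc + 2 * m)))) +
    (En m nc (fun i => Z₂ (i + 2 * m)) (fun i => Y (i + 2 * m)) +
      En m nc (fun i => Z₂ (i + (nc + 2 * m))) (fun i => Y (i + (nc + 2 * m)))) +
    (4 * (m : ℝ) + 1 + t ^ 2) • Xf (4 * m) (2 * nc) X +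
    (2 * (m : ℝ) ^ 2) • (Xf (4 * m) m X + Xf (2 * nc + 3 * m) m X) -
    ((4 : ℝ) • En m nc (fun i => X (2 * i)) (fun i => Y (2 * i)) +
      (2 * t) • Zf (5 * m) (2 * nc - 2 * m) Z₁ Z₂) with hΦ
  have hΦi : ∀ i, 0 ≤ w i * Φ (ind (c i)) := by
    intro i
    by_cases hwi : w i = 0
    · rw [hwi, zero_mul]
    refine mul_nonneg (hw i) ?_
    obtain ⟨τ, hτ1, hτ2⟩ := thresholds (σ₂_met hm) (n := 2 * N) (x := x) (c := c i)
      (fun u v huv => good_cut hrq hw hsum' hst hwi huv)
    have hxz1 : σ₂ m x z₁ = m := by simp [σ₂, σ₁, hx, hz₁]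
    have hxz2 : σ₂ m x z₂ = m := by simp [σ₂, σ₁, hx, hz₂]
    have hz1y : σ₂ m z₁ y = m := by simp [σ₂, σ₁, hy, hz₁]
    have hz2y : σ₂ m z₂ y = m := by simp [σ₂, σ₁, hy, hz₂]
    have hxy : σ₂ m x y = 2 * m := by simp [σ₂, σ₁, hx, hy]; omega
    have hsx : σ₂ m x x = 0 := (σ₂_met hm).self x
    have hsy := (σ₂_met hm).symm
    have key := cut_ineq (m := m) (nc := nc) hnc (X := X) (Y := Y) (Z₁ := Z₁) (Z₂ := Z₂)
      (F := rel (c i) (pt (2 * N) x 0)) (x := τ x) (y := τ y) (z₁ := τ z₁) (z₂ := τ z₂)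
      (fun h a => by rw [hX, hτ2 x h (by omega) (by omega)]; norm_cast)
      (fun h a b => by rw [hZ₁, hτ2 z₁ h (by omega) (by omega)]; norm_cast)
      (fun h a b => by rw [hZ₂, hτ2 z₂ h (by omega) (by omega)]; norm_cast)
      (fun h a b => by rw [hY, hτ2 y h (by omega) (by omega)]; norm_cast)
      (by have := hτ1 z₁ x; rw [hsy, hxz1] at this; exact_mod_cast this)
      (by have := hτ1 x z₁; rw [hxz1] at this; exact_mod_cast this)
      (by have := hτ1 z₂ x; rw [hsy, hxz2] at this; exact_mod_cast this)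
      (by have := hτ1 x z₂; rw [hxz2] at this; exact_mod_cast this)
      (by have := hτ1 z₁ y; rw [hz1y] at this; exact_mod_cast this)
      (by have := hτ1 y z₁; rw [hsy, hz1y] at this; exact_mod_cast this)
      (by have := hτ1 z₂ y; rw [hz2y] at this; exact_mod_cast this)
      (by have := hτ1 y z₂; rw [hsy, hz2y] at this; exact_mod_cast this)
      ht
    rw [ind_rel] at key
    rw [hΦ]
    simp only [LinearMap.sub_apply, LinearMap.add_apply, LinearMap.smul_apply, smul_eq_mul]
    linarith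
  have hΦr : 0 ≤ Φ r := by
    rw [hrs, map_sum]
    refine Finset.sum_nonneg fun i _ => ?_
    rw [map_smul, smul_eq_mul]
    exact hΦi i
  -- values
  have hxz1 : σ₂ m x z₁ = m := by simp [σ₂, σ₁, hx, hz₁]
  have hxz2 : σ₂ m x z₂ = m := by simp [σ₂, σ₁, hx, hz₂]
  have hz1y : σ₂ m z₁ y = m := by simp [σ₂, σ₁, hy, hz₁]
  have hz2y : σ₂ m z₂ y = m := by simp [σ₂, σ₁, hy, hz₂]
  have hz12 : σ₂ m z₁ z₂ = 2 * m := by simp [σ₂, σ₁, hz₁, hz₂]; omega
  have hsx : σ₂ m x x = 0 := (σ₂_met hm).self x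
  have v1 := child x z₁ (2 * m) hxz1 (by omega) (by omega) (by omega)
  have v2 := child x z₁ (nc + 2 * m) hxz1 (by omega) (by omega) (by omega)
  have v3 := child x z₂ (2 * m) hxz2 (by omega) (by omega) (by omega)
  have v4 := child x z₂ (nc + 2 * m) hxz2 (by omega) (by omega) (by omega)
  have v5 := child z₁ y (2 * m) hz1y (by omega) (by omega) (by omega)
  have v6 := child z₁ y (nc + 2 * m) hz1y (by omega) (by omega) (by omega)
  have v7 := child z₂ y (2 * m) hz2y (by omega) (by omega) (by omega)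
  have v8 := child z₂ y (nc + 2 * m) hz2y (by omega) (by omega) (by omega)
  have v9 : En m nc (fun i => X (2 * i)) (fun i => Y (2 * i)) r = 2 * E := by
    have h1 : (fun a b => r (em a) (em b)) = (2 : ℝ) • ρs := by
      funext a b
      rw [hr']
      rfl
    have h2 := En_comp m nc (fun i => (pt N false i : Bool × Fin (N + 1))) (fun i => pt N true i)
      em r
    rw [h1, map_smul, smul_eq_mul] at h2
    simp only [hemf, hemt] at h2
    rw [hE]
    exact h2.symm
  have hstep : ∀ h, h + 1 ≤ 2 * N → r (X h) (X (h + 1)) ≤ 1 := by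
    intro h hh
    refine (hrq _ _).trans ?_
    rw [hX, slab_pt (by omega) hh, hsx]
    push_cast
    rw [max_eq_left (by linarith)]
    linarith
  have hXf : ∀ h₀ n, h₀ + n ≤ 2 * N → Xf h₀ n X r ≤ n := by
    intro h₀ n hn
    rw [Xf_apply]
    have := Finset.sum_le_card_nsmul (Finset.range n) (fun b => r (X (h₀ + b)) (X (h₀ + b + 1))) 1
      (fun b hb => hstep _ (by rw [Finset.mem_range] at hb; omega))
    rwa [Finset.card_range, nsmul_eq_mul, mul_one] at this
  have v10 := hXf (4 * m) (2 * nc) (by omega)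
  have v11 := hXf (4 * m) m (by omega)
  have v12 := hXf (2 * nc + 3 * m) m (by omega)
  have v13 : (2 * nc - 2 * m : ℝ) * (2 * m / D) ≤ Zf (5 * m) (2 * nc - 2 * m) Z₁ Z₂ r := by
    rw [Zf_apply]
    have h1 : ∀ b ∈ Finset.range (2 * nc - 2 * m), 2 * (m : ℝ) / D ≤
        r (Z₁ (5 * m + b)) (Z₂ (5 * m + b)) := by
      intro b hb
      rw [Finset.mem_range] at hb
      have h2 := (KK.adm hr).low (Z₁ (5 * m + b)) (Z₂ (5 * m + b))
      rw [hZ₁, hZ₂, slab_pt le_rfl (by omega), hz12, sub_self] at h2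
      rw [div_le_iff₀' hD0]
      refine le_trans ?_ h2
      push_cast
      exact le_max_right _ _
    have h3 := Finset.card_nsmul_le_sum _ _ _ h1
    rw [Finset.card_range, nsmul_eq_mul, Nat.cast_sub (by omega)] at h3
    push_cast at h3
    exact h3
  rw [hΦ] at hΦr
  simp only [LinearMap.sub_apply, LinearMap.add_apply, LinearMap.smul_apply, smul_eq_mul] at hΦr
  rw [v9] at hΦr
  have w1 : (4 * (m : ℝ) + 1 + t ^ 2) * Xf (4 * m) (2 * nc) X r ≤
      (4 * (m : ℝ) + 1 + t ^ 2) * ((2 * nc : ℕ) : ℝ) :=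
    mul_le_mul_of_nonneg_left v10 (by positivity)
  have w2 : 2 * (m : ℝ) ^ 2 * (Xf (4 * m) m X r + Xf (2 * nc + 3 * m) m X r) ≤
      2 * (m : ℝ) ^ 2 * (m + m) :=
    mul_le_mul_of_nonneg_left (add_le_add v11 v12) (by positivity)
  have w3 := mul_le_mul_of_nonneg_left v13 (show 0 ≤ 2 * t by linarith)
  push_cast at w1
  linarith [v1, v2, v3, v4, v5, v6, v7, v8]

end Vale.Agent.P235.TL
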