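import Vale.Agent.P235.H150.Ksets

set_option linter.all false

/-! The largest slope and saturated pairs. -/

namespace Vale.Agent.P235.TL

open Set

/-- indicator that a cut separates two points -/
def ind {V : Type} (c : V → Bool) (x y : V) : ℝ := if c x = c y then 0 else 1

/-- distance `t` between two points -/
def pr (t : ℝ) (x y : Bool) : ℝ := if x = y then 0 else t

theorem pr_met {t : ℝ} (ht : 0 < t) : Met (pr t) := by
  refine ⟨fun x => if_pos rfl, fun x y h => ?_, fun x y => ?_, fun x y z => ?_⟩
  · rw [pr, if_neg h]; exact ht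
  · unfold pr; rcases x <;> rcases y <;> simp
  · unfold pr; rcases x <;> rcases y <;> rcases z <;> simp <;> linarith

variable {k : ℕ} {D : ℝ}

theorem exists_q (H : Hyp k D) (hD : 1 ≤ D) (hk : 1 ≤ k) :
    ∃ q : ℝ, 0 < q ∧ q ≤ 1 ∧ (∃ ρ ∈ KK k D (pr 1), ρ false true = q) ∧
      ∀ {A : Type} {dA ρ : A → A → ℝ}, Met dA → ρ ∈ KK k D dA → ∀ a b, ρ a b ≤ q * dA a b := by
  have hD0 : 0 < D := by linarith
  have hne : (KK k D (pr 1)).Nonempty := by
    obtain ⟨r, hr⟩ := KK.nonempty H hD0 (A := Bool) (by
      rw [Nat.card_eq_fintype_card, Fintype.card_bool]; omega) (pr_met one_pos)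
    exact ⟨r, hr⟩
  obtain ⟨ρ, hρ, hmax⟩ := (KK.compact (k := k) (D := D) (pr 1)).exists_isMaxOn hne
    (f := fun r : Bool → Bool → ℝ => r false true)
    ((continuous_apply true).comp (continuous_apply false)).continuousOn
  have h1 := (KK.adm hρ).low false true
  have h2 := (KK.adm hρ).up false true
  have e1 : pr 1 false true = 1 := rfl
  rw [e1] at h1 h2
  refine ⟨ρ false true, ?_, h2, ⟨ρ, hρ, rfl⟩, ?_⟩
  · by_contra h
    push Not at h
    have := mul_nonpos_of_nonneg_of_nonpos hD0.le h
    linarith
  · intro A dA r hm hr a b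
    by_cases hab : a = b
    · subst hab
      have := (KK.adm hr).up a a
      rw [hm.self] at this ⊢
      linarith
    · have ht := hm.pos a b hab
      have h3 := KK.scale (KK.restrict hr (fun x : Bool => if x then b else a)) (inv_pos.2 ht)
      have e : (fun x y : Bool => (dA a b)⁻¹ * dA (if x = true then b else a)
          (if y = true then b else a)) = pr 1 := by
        funext x y
        rcases x <;> rcases y
        · simp [pr, hm.self]
        · simp [pr, ht.ne']
        · simp [pr, hm.symm b a, ht.ne']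
        · simp [pr, hm.self]
      rw [e] at h3
      have h4 := hmax h3
      have h5 : (dA a b)⁻¹ * r a b ≤ ρ false true := by simpa using h4
      rwa [inv_mul_le_iff₀ ht, mul_comm] at h5

/-- cuts of positive weight cross saturated geodesics at most once -/
theorem good_cut {V : Type} {d ρ : V → V → ℝ} {q : ℝ} (hρ : ∀ x y, ρ x y ≤ q * d x y)
    {ι : Type} [Fintype ι] {w : ι → ℝ} {c : ι → V → Bool} (hw : ∀ i, 0 ≤ w i)
    (hsum : ∀ x y, ρ x y = ∑ i, w i * ind (c i) x y) {s t : V} (hst : ρ s t = q * d s t)
    {i : ι} (hi : w i ≠ 0) {u v : V} (huv : d s u + d u v + d v t = d s t) :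
    ind (c i) s u + ind (c i) u v + ind (c i) v t = ind (c i) s t := by
  have hnn : ∀ j, 0 ≤ ind (c j) s u + ind (c j) u v + ind (c j) v t - ind (c j) s t := by
    intro j
    unfold ind
    cases c j s <;> cases c j u <;> cases c j v <;> cases c j t <;> simp
  have h0 : ∑ j, w j * (ind (c j) s u + ind (c j) u v + ind (c j) v t - ind (c j) s t) ≤ 0 := by
    have e : ∑ j, w j * (ind (c j) s u + ind (c j) u v + ind (c j) v t - ind (c j) s t) =
        ρ s u + ρ u v + ρ v t - ρ s t := by
      rw [hsum, hsum, hsum, hsum, ← Finset.sum_add_distrib, ← Finset.sum_add_distrib,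
        ← Finset.sum_sub_distrib]
      exact Finset.sum_congr rfl fun j _ => by ring
    rw [e, hst, ← huv]
    have := hρ s u
    have := hρ u v
    have := hρ v t
    linarith
  have h1 : ∀ j ∈ Finset.univ, 0 ≤
      w j * (ind (c j) s u + ind (c j) u v + ind (c j) v t - ind (c j) s t) :=
    fun j _ => mul_nonneg (hw j) (hnn j)
  have h2 := (Finset.sum_eq_zero_iff_of_nonneg h1).1 (le_antisymm h0 (Finset.sum_nonneg h1)) i
    (Finset.mem_univ i)
  have h3 := (mul_eq_zero.1 h2).resolve_left hi
  linarith

end Vale.Agent.P235.TL
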