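import Vale.Agent.P235.H150.Cut

set_option linter.all false

/-! Slabs: finitely many lines with heights. -/

namespace Vale.Agent.P235.TL

open Set

/-- finite metric with natural values -/
structure NMet {L : Type} (σ : L → L → ℕ) : Prop where
  self : ∀ x, σ x x = 0
  pos : ∀ x y, x ≠ y → 0 < σ x y
  symm : ∀ x y, σ x y = σ y x
  tri : ∀ x y z, σ x z ≤ σ x y + σ y z

/-- lines `L`, heights `0, …, n` -/
def slab {L : Type} (σ : L → L → ℕ) (n : ℕ) (p r : L × Fin (n + 1)) : ℝ :=
  max |((p.2.val : ℕ) : ℝ) - ((r.2.val : ℕ) : ℝ)| (σ p.1 r.1 : ℝ)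

/-- the point of line `u` at height `h` -/
def pt {L : Type} (n : ℕ) (u : L) (h : ℕ) : L × Fin (n + 1) := (u, ⟨min h n, by omega⟩)

theorem slab_met {L : Type} {σ : L → L → ℕ} (hσ : NMet σ) (n : ℕ) : Met (slab σ n) := by
  refine ⟨?_, ?_, ?_, ?_⟩
  · intro p
    unfold slab
    rw [hσ.self, sub_self, abs_zero, Nat.cast_zero, max_self]
  · intro p r h
    unfold slab
    by_cases h1 : p.1 = r.1
    · have h2 : p.2.val ≠ r.2.val := fun e => h (Prod.ext h1 (Fin.ext e))
      refine lt_max_of_lt_left (abs_pos.2 (sub_ne_zero.2 ?_))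
      exact_mod_cast h2
    · refine lt_max_of_lt_right ?_
      exact_mod_cast hσ.pos _ _ h1
  · intro p r
    unfold slab
    rw [abs_sub_comm, hσ.symm]
  · intro p r s
    unfold slab
    refine max_le ?_ ?_
    · exact (abs_sub_le _ _ _).trans (add_le_add (le_max_left _ _) (le_max_left _ _))
    · have : (σ p.1 s.1 : ℝ) ≤ σ p.1 r.1 + σ r.1 s.1 := by exact_mod_cast hσ.tri _ _ _
      exact this.trans (add_le_add (le_max_right _ _) (le_max_right _ _))

theorem slab_pt {L : Type} {σ : L → L → ℕ} {n : ℕ} {u v : L} {h h' : ℕ} (h1 : h ≤ h')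
    (h2 : h' ≤ n) : slab σ n (pt n u h) (pt n v h') = max ((h' : ℝ) - h) (σ u v : ℝ) := by
  unfold slab pt
  dsimp only
  rw [min_eq_left (h1.trans h2), min_eq_left h2, abs_sub_comm, abs_of_nonneg]
  have : (h : ℝ) ≤ h' := by exact_mod_cast h1
  linarith

/-- the three consecutive distances of a geodesic from bottom to top of a line -/
theorem slab_geo {L : Type} {σ : L → L → ℕ} (hσ : NMet σ) {n : ℕ} {x u v : L} {h h' : ℕ}
    (h1 : h + σ u v ≤ h') (hu : σ x u ≤ h) (hv : h' + σ x v ≤ n) :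
    slab σ n (pt n x 0) (pt n u h) + slab σ n (pt n u h) (pt n v h') +
      slab σ n (pt n v h') (pt n x n) = slab σ n (pt n x 0) (pt n x n) := by
  rw [slab_pt (by omega) (by omega), slab_pt (by omega) (by omega), slab_pt (by omega) le_rfl,
    slab_pt (by omega) le_rfl, hσ.self, max_eq_left, max_eq_left, max_eq_left, max_eq_left]
  · push_cast; ring
  · push_cast; have : (0 : ℝ) ≤ n := Nat.cast_nonneg n; linarith
  · rw [hσ.symm]
    have : (h' : ℝ) + σ x v ≤ n := by exact_mod_cast hv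
    linarith
  · have : (h : ℝ) + σ u v ≤ h' := by exact_mod_cast h1
    linarith
  · have : (σ x u : ℝ) ≤ h := by exact_mod_cast hu
    push_cast; linarith

/-- the cut relative to a point -/
def rel {V : Type} (c : V → Bool) (s : V) (p : V) : Bool := xor (c p) (c s)

theorem ind_rel {V : Type} (c : V → Bool) (s : V) : ind (rel c s) = ind c := by
  funext p r
  unfold ind rel
  cases c p <;> cases c r <;> cases c s <;> simp

theorem thresholds {L : Type} {σ : L → L → ℕ} (hσ : NMet σ) {n : ℕ} {x : L}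
    {c : L × Fin (n + 1) → Bool}
    (hc : ∀ u v, slab σ n (pt n x 0) u + slab σ n u v + slab σ n v (pt n x n) =
      slab σ n (pt n x 0) (pt n x n) →
      ind c (pt n x 0) u + ind c u v + ind c v (pt n x n) = ind c (pt n x 0) (pt n x n)) :
    ∃ τ : L → ℕ, (∀ u v, τ v ≤ τ u + σ u v) ∧ ∀ u h, σ x u ≤ h → h + σ x u ≤ n →
      (rel c (pt n x 0) (pt n u h) = true ↔ τ u ≤ h) := by
  classical
  set F : L × Fin (n + 1) → Bool := rel c (pt n x 0) with hF
  have mono : ∀ u v h h', h + σ u v ≤ h' → σ x u ≤ h → h' + σ x v ≤ n →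
      F (pt n u h) = true → F (pt n v h') = true := by
    intro u v h h' h1 hu hv hFu
    have := hc _ _ (slab_geo hσ h1 hu hv)
    rw [hF] at hFu ⊢
    unfold rel at hFu ⊢
    unfold ind at this
    revert this hFu
    cases c (pt n u h) <;> cases c (pt n v h') <;> cases c (pt n x 0) <;> cases c (pt n x n) <;>
      simp
  set G : L → ℕ → Prop := fun u h => n < h + σ x u ∨ (σ x u ≤ h ∧ F (pt n u h) = true) with hG
  have gmono : ∀ u v h h', h + σ u v ≤ h' → G u h → G v h' := by
    intro u v h h' h1 hg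
    have t1 := hσ.tri x v u
    rw [hσ.symm v u] at t1
    have t2 := hσ.tri x u v
    rcases hg with hg | ⟨hg1, hg2⟩
    · left; omega
    · by_cases h2 : n < h' + σ x v
      · exact Or.inl h2
      · right
        exact ⟨by omega, mono u v h h' h1 hg1 (by omega) hg2⟩
  have hex : ∀ u, ∃ h, G u h := fun u => ⟨n + 1, Or.inl (by omega)⟩
  refine ⟨fun u => Nat.find (hex u), ?_, ?_⟩
  · intro u v
    exact Nat.find_min' (hex v) (gmono u v _ _ le_rfl (Nat.find_spec (hex u)))
  · intro u h h1 h2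
    constructor
    · intro h3
      exact Nat.find_min' (hex u) (Or.inr ⟨h1, h3⟩)
    · intro h3
      have h4 := gmono u u _ h (by rw [hσ.self]; exact h3) (Nat.find_spec (hex u))
      rcases h4 with h4 | h4
      · omega
      · exact h4.2

/-- two lines -/
def σ₁ (m : ℕ) (a b : Bool) : ℕ := if a = b then 0 else m

/-- four lines, a cycle -/
def σ₂ (m : ℕ) (a b : Bool × Bool) : ℕ := σ₁ m a.1 b.1 + σ₁ m a.2 b.2

theorem σ₁_met {m : ℕ} (hm : 1 ≤ m) : NMet (σ₁ m) := by
  refine ⟨?_, ?_, ?_, ?_⟩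
  · intro x; simp [σ₁]
  · intro x y h; simp [σ₁, h]; omega
  · intro x y; simp [σ₁, eq_comm]
  · intro x y z
    unfold σ₁
    cases x <;> cases y <;> cases z <;> simp

theorem σ₂_met {m : ℕ} (hm : 1 ≤ m) : NMet (σ₂ m) := by
  have h := σ₁_met hm
  refine ⟨?_, ?_, ?_, ?_⟩
  · intro x; simp [σ₂, h.self]
  · intro x y hxy
    unfold σ₂
    by_cases h1 : x.1 = y.1
    · have h2 : x.2 ≠ y.2 := fun e => hxy (Prod.ext h1 e)
      have := h.pos _ _ h2
      omega
    · have := h.pos _ _ h1
      omega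
  · intro x y
    unfold σ₂
    rw [h.symm, h.symm x.2]
  · intro x y z
    unfold σ₂
    have := h.tri x.1 y.1 z.1
    have := h.tri x.2 y.2 z.2
    omega

end Vale.Agent.P235.TL
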