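import Vale.Agent.P235.H150.Sat

set_option linter.all false

/-! Energy of a window and its value at a monotone cut. -/

namespace Vale.Agent.P235.TL

open Set

/-- evaluation -/
def ev {A : Type} (p r : A) : (A → A → ℝ) →ₗ[ℝ] ℝ where
  toFun ρ := ρ p r
  map_add' _ _ := rfl
  map_smul' _ _ := rfl

theorem ev_apply {A : Type} (p r : A) (ρ : A → A → ℝ) : ev p r ρ = ρ p r := rfl

/-- energy of a window -/
noncomputable def En (m nc : ℕ) {A : Type} (P Q : ℕ → A) : (A → A → ℝ) →ₗ[ℝ] ℝ :=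
  ∑ b ∈ Finset.range nc, (∑ l ∈ Finset.range (2 * m), ((l : ℝ) - m + 1 / 2) •
    (ev (P (2 * m + b + 1)) (Q (m + b + 1 + l)) - ev (P (2 * m + b)) (Q (m + b + 1 + l))) +
    ((m : ℝ) ^ 2) • ev (P (2 * m + b)) (P (2 * m + b + 1)))

theorem En_apply (m nc : ℕ) {A : Type} (P Q : ℕ → A) (ρ : A → A → ℝ) :
    En m nc P Q ρ = ∑ b ∈ Finset.range nc, (∑ l ∈ Finset.range (2 * m), ((l : ℝ) - m + 1 / 2) *
    (ρ (P (2 * m + b + 1)) (Q (m + b + 1 + l)) - ρ (P (2 * m + b)) (Q (m + b + 1 + l))) +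
    ((m : ℝ) ^ 2) * ρ (P (2 * m + b)) (P (2 * m + b + 1))) := by
  unfold En
  simp only [LinearMap.sum_apply, LinearMap.add_apply, LinearMap.smul_apply, LinearMap.sub_apply,
    ev_apply, smul_eq_mul]

theorem En_comp (m nc : ℕ) {A B : Type} (P Q : ℕ → B) (f : B → A) (ρ : A → A → ℝ) :
    En m nc P Q (fun x y => ρ (f x) (f y)) = En m nc (fun i => f (P i)) (fun i => f (Q i)) ρ := by
  rw [En_apply, En_apply]

theorem aux_sum (m s : ℕ) (n : ℕ) :
    ∑ l ∈ Finset.range n, ((l : ℝ) - m + 1 / 2) * (if s ≤ l then -1 else 1) =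
      if n ≤ s then (n : ℝ) ^ 2 / 2 - m * n else (s : ℝ) ^ 2 - 2 * m * s - (n : ℝ) ^ 2 / 2 + m * n := by
  induction n with
  | zero => simp
  | succ n ih =>
    rw [Finset.sum_range_succ, ih]
    by_cases h1 : n + 1 ≤ s
    · rw [if_pos (by omega), if_neg (by omega), if_pos h1]
      push_cast; ring
    · rw [if_neg h1]
      by_cases h2 : n ≤ s
      · have : n = s := by omega
        subst this
        rw [if_pos le_rfl, if_pos le_rfl]
        push_cast; ring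
      · rw [if_neg h2, if_pos (by omega)]
        push_cast; ring

/-- value of the energy at a monotone cut -/
theorem En_ind {m nc : ℕ} {A : Type} {P Q : ℕ → A} {F : A → Bool} {τ₀ τ₁ : ℤ}
    (h0 : ∀ h : ℕ, 2 * m ≤ h → h ≤ 2 * m + nc → (F (P h) = true ↔ τ₀ ≤ h))
    (h1 : ∀ h : ℕ, m ≤ h → h ≤ 3 * m + nc → (F (Q h) = true ↔ τ₁ ≤ h))
    (h2 : τ₁ ≤ τ₀ + m) (h3 : τ₀ ≤ τ₁ + m) :
    En m nc P Q (ind F) =
      if (2 * m : ℤ) < τ₀ ∧ τ₀ ≤ 2 * m + nc then ((τ₁ : ℝ) - τ₀) ^ 2 else 0 := by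
  have key : ∀ b ∈ Finset.range nc, (∑ l ∈ Finset.range (2 * m), ((l : ℝ) - m + 1 / 2) *
      (ind F (P (2 * m + b + 1)) (Q (m + b + 1 + l)) - ind F (P (2 * m + b)) (Q (m + b + 1 + l))) +
      ((m : ℝ) ^ 2) * ind F (P (2 * m + b)) (P (2 * m + b + 1))) =
      if τ₀ = 2 * m + b + 1 then ((τ₁ : ℝ) - τ₀) ^ 2 else 0 := by
    intro b hb
    rw [Finset.mem_range] at hb
    have f0 := h0 (2 * m + b) (by omega) (by omega)
    have f1 := h0 (2 * m + b + 1) (by omega) (by omega)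
    push_cast at f0 f1
    by_cases hτ : τ₀ = 2 * m + b + 1
    · rw [if_pos hτ]
      have g0 : F (P (2 * m + b)) = false := by
        rw [← Bool.not_eq_true, f0]; omega
      have g1 : F (P (2 * m + b + 1)) = true := by rw [f1]; omega
      obtain ⟨s, hs⟩ : ∃ s : ℕ, (s : ℤ) = τ₁ - τ₀ + m := ⟨(τ₁ - τ₀ + m).toNat, by omega⟩
      have e : ∀ l ∈ Finset.range (2 * m), ((l : ℝ) - m + 1 / 2) *
          (ind F (P (2 * m + b + 1)) (Q (m + b + 1 + l)) -
            ind F (P (2 * m + b)) (Q (m + b + 1 + l))) =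
          ((l : ℝ) - m + 1 / 2) * (if s ≤ l then -1 else 1) := by
        intro l hl
        rw [Finset.mem_range] at hl
        have f2 := h1 (m + b + 1 + l) (by omega) (by omega)
        congr 1
        unfold ind
        rw [g0, g1]
        by_cases hsl : s ≤ l
        · have g2 : F (Q (m + b + 1 + l)) = true := by rw [f2]; push_cast; omega
          rw [g2, if_pos hsl]; simp
        · have g2 : F (Q (m + b + 1 + l)) = false := by
            rw [← Bool.not_eq_true, f2]; push_cast; omega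
          rw [g2, if_neg hsl]; simp
      rw [Finset.sum_congr rfl e, aux_sum]
      have g3 : ind F (P (2 * m + b)) (P (2 * m + b + 1)) = 1 := by
        unfold ind; rw [g0, g1]; simp
      rw [g3]
      have hs' : (s : ℝ) = τ₁ - τ₀ + m := by exact_mod_cast hs
      by_cases h4 : 2 * m ≤ s
      · rw [if_pos h4]
        have : s = 2 * m := by omega
        have h5 : (τ₁ : ℝ) - τ₀ = m := by
          rw [this] at hs'
          push_cast at hs'
          linarith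
        rw [h5]; push_cast; ring
      · rw [if_neg h4, hs']; push_cast; ring
    · rw [if_neg hτ]
      have g : F (P (2 * m + b)) = F (P (2 * m + b + 1)) := by
        rw [Bool.eq_iff_iff, f0, f1]; omega
      have e : ∀ l ∈ Finset.range (2 * m), ((l : ℝ) - m + 1 / 2) *
          (ind F (P (2 * m + b + 1)) (Q (m + b + 1 + l)) -
            ind F (P (2 * m + b)) (Q (m + b + 1 + l))) = 0 := by
        intro l _
        unfold ind
        rw [g]; ring
      rw [Finset.sum_eq_zero e]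
      unfold ind
      rw [g]; simp
  rw [En_apply, Finset.sum_congr rfl key]
  by_cases h : (2 * m : ℤ) < τ₀ ∧ τ₀ ≤ 2 * m + nc
  · rw [if_pos h]
    obtain ⟨b, hb⟩ : ∃ b : ℕ, (b : ℤ) = τ₀ - 2 * m - 1 := ⟨(τ₀ - 2 * m - 1).toNat, by omega⟩
    rw [Finset.sum_eq_single b, if_pos (by omega)]
    · intro b' _ hb'
      rw [if_neg (by omega)]
    · intro hb'
      rw [Finset.mem_range] at hb'
      omega
  · rw [if_neg h]
    refine Finset.sum_eq_zero fun b hb => ?_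
    rw [Finset.mem_range] at hb
    rw [if_neg (by omega)]

/-- length along a line -/
noncomputable def Xf (h₀ n : ℕ) {A : Type} (P : ℕ → A) : (A → A → ℝ) →ₗ[ℝ] ℝ :=
  ∑ b ∈ Finset.range n, ev (P (h₀ + b)) (P (h₀ + b + 1))

theorem Xf_apply (h₀ n : ℕ) {A : Type} (P : ℕ → A) (ρ : A → A → ℝ) :
    Xf h₀ n P ρ = ∑ b ∈ Finset.range n, ρ (P (h₀ + b)) (P (h₀ + b + 1)) := by
  unfold Xf
  simp only [LinearMap.sum_apply, ev_apply]

theorem Xf_ind {h₀ n : ℕ} {A : Type} {P : ℕ → A} {F : A → Bool} {τ : ℤ}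
    (h0 : ∀ h : ℕ, h₀ ≤ h → h ≤ h₀ + n → (F (P h) = true ↔ τ ≤ h)) :
    Xf h₀ n P (ind F) = if (h₀ : ℤ) < τ ∧ τ ≤ h₀ + n then 1 else 0 := by
  have key : ∀ b ∈ Finset.range n, ind F (P (h₀ + b)) (P (h₀ + b + 1)) =
      if τ = h₀ + b + 1 then 1 else 0 := by
    intro b hb
    rw [Finset.mem_range] at hb
    have f0 := h0 (h₀ + b) (by omega) (by omega)
    have f1 := h0 (h₀ + b + 1) (by omega) (by omega)
    push_cast at f0 f1
    unfold ind
    by_cases hτ : τ = h₀ + b + 1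
    · rw [if_pos hτ, if_neg]
      intro e
      rw [Bool.eq_iff_iff, f0, f1] at e
      omega
    · rw [if_neg hτ, if_pos]
      rw [Bool.eq_iff_iff, f0, f1]
      omega
  rw [Xf_apply, Finset.sum_congr rfl key]
  by_cases h : (h₀ : ℤ) < τ ∧ τ ≤ h₀ + n
  · rw [if_pos h]
    obtain ⟨b, hb⟩ : ∃ b : ℕ, (b : ℤ) = τ - h₀ - 1 := ⟨(τ - h₀ - 1).toNat, by omega⟩
    rw [Finset.sum_eq_single b, if_pos (by omega)]
    · intro b' _ hb'
      rw [if_neg (by omega)]
    · intro hb'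
      rw [Finset.mem_range] at hb'
      omega
  · rw [if_neg h]
    refine Finset.sum_eq_zero fun b hb => ?_
    rw [Finset.mem_range] at hb
    rw [if_neg (by omega)]

/-- distance between two lines -/
noncomputable def Zf (h₀ n : ℕ) {A : Type} (P Q : ℕ → A) : (A → A → ℝ) →ₗ[ℝ] ℝ :=
  ∑ b ∈ Finset.range n, ev (P (h₀ + b)) (Q (h₀ + b))

theorem Zf_apply (h₀ n : ℕ) {A : Type} (P Q : ℕ → A) (ρ : A → A → ℝ) :
    Zf h₀ n P Q ρ = ∑ b ∈ Finset.range n, ρ (P (h₀ + b)) (Q (h₀ + b)) := by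
  unfold Zf
  simp only [LinearMap.sum_apply, ev_apply]

theorem Zf_ind {h₀ n : ℕ} {A : Type} {P Q : ℕ → A} {F : A → Bool} {τ₁ τ₂ : ℤ}
    (h1 : ∀ h : ℕ, h₀ ≤ h → h < h₀ + n → (F (P h) = true ↔ τ₁ ≤ h))
    (h2 : ∀ h : ℕ, h₀ ≤ h → h < h₀ + n → (F (Q h) = true ↔ τ₂ ≤ h)) :
    Zf h₀ n P Q (ind F) ≤ |(τ₁ : ℝ) - τ₂| := by
  have key : ∀ b ∈ Finset.range n, ind F (P (h₀ + b)) (Q (h₀ + b)) =
      if min τ₁ τ₂ ≤ (h₀ + b : ℤ) ∧ (h₀ + b : ℤ) < max τ₁ τ₂ then 1 else 0 := by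
    intro b hb
    rw [Finset.mem_range] at hb
    have f0 := h1 (h₀ + b) (by omega) (by omega)
    have f1 := h2 (h₀ + b) (by omega) (by omega)
    push_cast at f0 f1
    unfold ind
    by_cases hτ : min τ₁ τ₂ ≤ (h₀ + b : ℤ) ∧ (h₀ + b : ℤ) < max τ₁ τ₂
    · rw [if_pos hτ, if_neg]
      intro e
      rw [Bool.eq_iff_iff, f0, f1] at e
      omega
    · rw [if_neg hτ, if_pos]
      rw [Bool.eq_iff_iff, f0, f1]
      omega
  rw [Zf_apply, Finset.sum_congr rfl key, ← Finset.sum_filter, Finset.sum_const, nsmul_eq_mul,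
    mul_one]
  have h3 : ((Finset.range n).filter fun b : ℕ =>
      min τ₁ τ₂ ≤ (h₀ + b : ℤ) ∧ (h₀ + b : ℤ) < max τ₁ τ₂).card ≤
      (Finset.Ico (min τ₁ τ₂) (max τ₁ τ₂)).card := by
    refine Finset.card_le_card_of_injOn (fun b : ℕ => (h₀ + b : ℤ)) ?_ ?_
    · intro b hb
      have := (Finset.mem_filter.1 hb).2
      simpa [Finset.mem_Ico] using this
    · intro b _ b' _ h
      have : (h₀ + b : ℤ) = h₀ + b' := h
      omega
  rw [Int.card_Ico] at h3
  have h4 : (((max τ₁ τ₂ - min τ₁ τ₂).toNat : ℤ)) = |τ₁ - τ₂| := by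
    rw [Int.toNat_of_nonneg (by omega)]
    exact max_sub_min_eq_abs' τ₁ τ₂
  have h5 : (((max τ₁ τ₂ - min τ₁ τ₂).toNat : ℝ)) = |(τ₁ : ℝ) - τ₂| := by
    have : (((max τ₁ τ₂ - min τ₁ τ₂).toNat : ℤ) : ℝ) = ((|τ₁ - τ₂| : ℤ) : ℝ) := by rw [h4]
    push_cast at this
    exact_mod_cast this
  rw [← h5]
  exact_mod_cast h3

end Vale.Agent.P235.TL
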